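import Mathlib

/-!
# Abstract construction of `x ↦ ∑ V i * x * star (V i)` for isometries with orthogonal ranges
-/

namespace Vale.Agent.P070.CE

open scoped InnerProductSpace ComplexOrder ENNReal

noncomputable section

variable {H : Type} [NormedAddCommGroup H] [InnerProductSpace ℂ H] [CompleteSpace H]
variable {ι : Type}

theorem bessel [DecidableEq ι] (V : ι → H →L[ℂ] H) (P : H →L[ℂ] H)
    (hV : ∀ i j, star (V i) * V j = if i = j then P else 0) (hVP : ∀ i, P * star (V i) = star (V i))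
    (ξ : H) (s : Finset ι) : ∑ i ∈ s, ‖(star (V i) : H →L[ℂ] H) ξ‖ ^ 2 ≤ ‖ξ‖ ^ 2 := by
  set S : ℝ := ∑ i ∈ s, ‖(star (V i) : H →L[ℂ] H) ξ‖ ^ 2 with hS
  set η : H := ∑ i ∈ s, V i ((star (V i) : H →L[ℂ] H) ξ) with hη
  have adj : ∀ (i : ι) (a b : H), ⟪V i a, b⟫_ℂ = ⟪a, (star (V i) : H →L[ℂ] H) b⟫_ℂ := by
    intro i a b
    rw [ContinuousLinearMap.star_eq_adjoint, ContinuousLinearMap.adjoint_inner_right]
  have h1 : ⟪η, ξ⟫_ℂ = (S : ℂ) := by
    rw [hη, sum_inner, hS]
    push_cast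
    refine Finset.sum_congr rfl fun i _ => ?_
    rw [adj, inner_self_eq_norm_sq_to_K]
    rfl
  have h2 : ∀ i ∈ s, (star (V i) : H →L[ℂ] H) η = (star (V i) : H →L[ℂ] H) ξ := by
    intro i hi
    rw [hη, map_sum, Finset.sum_eq_single i]
    · have := hV i i
      simp only [if_true] at this
      rw [← ContinuousLinearMap.mul_apply, this, ← ContinuousLinearMap.mul_apply, hVP]
    · intro j _ hj
      have := hV i j
      rw [if_neg (Ne.symm hj)] at this
      rw [← ContinuousLinearMap.mul_apply, this, ContinuousLinearMap.zero_apply]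
    · intro h; exact absurd hi h
  have h3 : ⟪η, η⟫_ℂ = (S : ℂ) := by
    conv_lhs => enter [2]; rw [hη]
    rw [sum_inner, hS]
    push_cast
    refine Finset.sum_congr rfl fun i hi => ?_
    rw [adj, h2 i hi, inner_self_eq_norm_sq_to_K]
    rfl
  have h4 : ‖η‖ ^ 2 = S := by
    rw [inner_self_eq_norm_sq_to_K] at h3
    have h3' : ((‖η‖ ^ 2 : ℝ) : ℂ) = (S : ℂ) := by
      rw [← h3]; push_cast; rfl
    exact Complex.ofReal_injective h3'
  have hS0 : 0 ≤ S := Finset.sum_nonneg fun i _ => sq_nonneg _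
  have h5 : S ≤ ‖η‖ * ‖ξ‖ := by
    have := norm_inner_le_norm (𝕜 := ℂ) η ξ
    rw [h1, Complex.norm_real, Real.norm_of_nonneg hS0] at this
    exact this
  have hη0 := norm_nonneg η
  have hξ0 := norm_nonneg ξ
  nlinarith [sq_nonneg (‖η‖ - ‖ξ‖)]

abbrev L2 (ι : Type) (H : Type) [NormedAddCommGroup H] : Type := lp (fun _ : ι => H) 2

theorem exists_W [DecidableEq ι] (V : ι → H →L[ℂ] H) (P : H →L[ℂ] H)
    (hV : ∀ i j, star (V i) * V j = if i = j then P else 0) (hVP : ∀ i, P * star (V i) = star (V i)) :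
    ∃ W : H →L[ℂ] L2 ι H, ‖W‖ ≤ 1 ∧ ∀ ξ i, W ξ i = (star (V i) : H →L[ℂ] H) ξ := by
  have h2 : (2 : ℝ≥0∞).toReal = 2 := by simp
  have hm : ∀ ξ : H, Memℓp (fun i => (star (V i) : H →L[ℂ] H) ξ) 2 := by
    intro ξ
    refine memℓp_gen' (C := ‖ξ‖ ^ 2) fun s => ?_
    rw [h2]
    simpa using bessel V P hV hVP ξ s
  let W₀ : H →ₗ[ℂ] L2 ι H :=
    { toFun := fun ξ => ⟨fun i => (star (V i) : H →L[ℂ] H) ξ, hm ξ⟩
      map_add' := fun a b => by
        ext i
        exact map_add (star (V i) : H →L[ℂ] H) a b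
      map_smul' := fun c a => by
        ext i
        exact map_smul (star (V i) : H →L[ℂ] H) c a }
  have hW₀ : ∀ ξ i, W₀ ξ i = (star (V i) : H →L[ℂ] H) ξ := fun _ _ => rfl
  have hb : ∀ ξ, ‖W₀ ξ‖ ≤ 1 * ‖ξ‖ := by
    intro ξ
    rw [one_mul]
    refine lp.norm_le_of_forall_sum_le (by simp) (norm_nonneg _) fun s => ?_
    rw [h2]
    simpa [hW₀] using bessel V P hV hVP ξ s
  exact ⟨W₀.mkContinuous 1 hb, W₀.mkContinuous_norm_le zero_le_one hb, fun _ _ => rfl⟩

/-- amplification -/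
def amp (ι : Type) (x : H →L[ℂ] H) : L2 ι H →L[ℂ] L2 ι H :=
  lp.mapCLM 2 (fun _ => x) (norm_nonneg x) (fun _ => le_rfl)

omit [CompleteSpace H] in
theorem amp_apply (x : H →L[ℂ] H) (f : L2 ι H) (i : ι) : amp ι x f i = x (f i) := rfl

omit [CompleteSpace H] in
theorem norm_amp (x : H →L[ℂ] H) : ‖amp ι x‖ ≤ ‖x‖ := lp.norm_mapCLM_le _ _ _ _

theorem amp_star (x : H →L[ℂ] H) :
    amp ι (star x) = ContinuousLinearMap.adjoint (amp ι x) := by
  rw [ContinuousLinearMap.eq_adjoint_iff]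
  intro f g
  rw [lp.inner_eq_tsum, lp.inner_eq_tsum]
  refine tsum_congr fun i => ?_
  rw [amp_apply, amp_apply, ContinuousLinearMap.star_eq_adjoint,
    ContinuousLinearMap.adjoint_inner_left]

theorem exists_E [DecidableEq ι] (V : ι → H →L[ℂ] H) (P : H →L[ℂ] H)
    (hV : ∀ i j, star (V i) * V j = if i = j then P else 0)
    (hVP : ∀ i, P * star (V i) = star (V i)) :
    ∃ E : (H →L[ℂ] H) →L[ℂ] (H →L[ℂ] H), (∀ x, ‖E x‖ ≤ ‖x‖) ∧ (∀ x, 0 ≤ x → 0 ≤ E x) ∧
      (∀ x, E (star x) = star (E x)) ∧ ∀ x i, E x * V i = V i * x * P := by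
  obtain ⟨W, hW, hWa⟩ := exists_W V P hV hVP
  let E₀ : (H →L[ℂ] H) →ₗ[ℂ] (H →L[ℂ] H) :=
    { toFun := fun x => ContinuousLinearMap.adjoint W ∘L (amp ι x ∘L W)
      map_add' := fun a b => by
        have : amp ι (a + b) = amp ι a + amp ι b := by
          ext f i; simp [amp_apply]
        rw [this, ContinuousLinearMap.add_comp, ContinuousLinearMap.comp_add]
      map_smul' := fun c a => by
        have : amp ι (c • a) = c • amp ι a := by
          ext f i; simp [amp_apply]
        rw [this, ContinuousLinearMap.smul_comp, ContinuousLinearMap.comp_smul]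
        rfl }
  have hE₀ : ∀ x, E₀ x = ContinuousLinearMap.adjoint W ∘L (amp ι x ∘L W) := fun _ => rfl
  have hb : ∀ x, ‖E₀ x‖ ≤ 1 * ‖x‖ := by
    intro x
    rw [hE₀, one_mul]
    have h1 : ‖ContinuousLinearMap.adjoint W‖ ≤ 1 := by
      rw [LinearIsometryEquiv.norm_map]; exact hW
    have h2 : ‖amp ι x ∘L W‖ ≤ ‖x‖ := by
      refine (ContinuousLinearMap.opNorm_comp_le _ _).trans ?_
      have := norm_amp (ι := ι) x
      nlinarith [norm_nonneg W, norm_nonneg (amp ι x), norm_nonneg x]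
    refine (ContinuousLinearMap.opNorm_comp_le _ _).trans ?_
    nlinarith [norm_nonneg (ContinuousLinearMap.adjoint W), norm_nonneg (amp ι x ∘L W),
      norm_nonneg x]
  refine ⟨E₀.mkContinuous 1 hb, fun x => by simpa using hb x, fun x hx => ?_, fun x => ?_,
    fun x i => ?_⟩
  · obtain ⟨y, rfl⟩ := CStarAlgebra.nonneg_iff_eq_star_mul_self.mp hx
    rw [LinearMap.mkContinuous_apply, hE₀, ContinuousLinearMap.nonneg_iff_isPositive]
    have : amp ι (star y * y) = ContinuousLinearMap.adjoint (amp ι y) ∘L amp ι y := by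
      rw [← amp_star]
      ext f i
      simp [amp_apply]
    rw [this]
    exact (ContinuousLinearMap.isPositive_adjoint_comp_self _).adjoint_conj W
  · rw [LinearMap.mkContinuous_apply, LinearMap.mkContinuous_apply, hE₀, hE₀, amp_star,
      ContinuousLinearMap.star_eq_adjoint, ContinuousLinearMap.adjoint_comp,
      ContinuousLinearMap.adjoint_comp, ContinuousLinearMap.adjoint_adjoint,
      ContinuousLinearMap.comp_assoc]
  · rw [LinearMap.mkContinuous_apply, hE₀]
    ext ξ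
    have h1 : amp ι x (W (V i ξ)) = lp.single 2 i (x (P ξ)) := by
      ext j
      rw [amp_apply, hWa, ← ContinuousLinearMap.mul_apply (star (V j)), hV, lp.single_apply]
      by_cases h : j = i
      · subst h; simp
      · simp [h]
    refine ext_inner_left ℂ fun η => ?_
    simp only [ContinuousLinearMap.mul_apply, ContinuousLinearMap.comp_apply]
    rw [h1, ContinuousLinearMap.adjoint_inner_right, lp.inner_single_right, hWa,
      ContinuousLinearMap.star_eq_adjoint, ContinuousLinearMap.adjoint_inner_left]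

end

end Vale.Agent.P070.CE
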