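import Vale.Agent.P070.Fock
import Vale.Agent.P070.CondExpAux

/-!
# Conditional expectations on Fock space (F4, F5)

PLAN.  Every word `w` is uniquely `η ++ v` with `η` a word in `X` and `v` a tail (`IsTail X v`)
(`takeWhile` / `dropWhile`).  So the isometries-on-range `V v := Rv v * PX X` (`v` a tail) have
orthogonal ranges, `star (V v) * V v' = if v = v' then PX X else 0`, `∑ V v * star (V v) = 1`
strongly.  Define `E x ξ = ∑_{v tail} V v (x (star (V v) ξ))` (orthogonal series,
`‖·‖² ≤ ‖x‖² ∑ ‖star (V v) ξ‖² = ‖x‖² ‖ξ‖²`); key identity `E x * V v = V v * x * PX X`.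
One convenient way to build it: coordinates, `(E x ξ) (η ++ v) = (x (star (V v) ξ)) η`, with
`Memℓp` from summability over the sigma type; or `HasSum` of an orthogonal family.
Two operators agree as soon as `x * V v = y * V v` for all tails `v` (`ext_dl`).
* bimodule: `a * V v = V v * a` for `a ∈ NN X` (`tail`, `a` commutes with `PX X`).
* `mem`: for `a ∈ NN univ`, `E a` commutes with `zr d`: on `V []` with `d ∈ X` use
  `PX_comm_ra`; with `d ∉ X`, `zr d * V [] = V [d]`; for `v ≠ []`,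
  `zr d * V v = V (v ++ [d]) + (V v.dropLast if v ends in d else 0)`.
* `E_E`: both sides are in `NN univ` and agree on `Om` (`sep`).
* `fock_split`: `P = mult {w | ∃ η c v, w = η ++ c :: v ∧ η word in X ∩ Y ∧ c ∈ Y ∧ c ∉ X}`.
  With `T = X ∩ Y`, for a `T`-tail `v` starting in `Y \ X` (an `X`-tail):
  `P * b * Rv v * PX T = P * Rv v * b * PX T = Rv v * PX T * b * PX T = E T b * Rv v * PX T`;
  the other `T`-tails are `Y`-tails and `1 - P` does the same for `a ∈ NN Y`.
  `PX X * (1 - P) = PX X` and `(1 - P) Om = Om` give the last item (`E X W Om = PX X (W Om)`, `sep`).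
-/

namespace Vale.Agent.P070

open Filter Topology
open scoped InnerProductSpace ComplexOrder

noncomputable section

variable {α : Type}

structure IsCondExp (X : Set α) (E : FM α →L[ℂ] FM α) : Prop where
  one : E 1 = 1
  nonneg : ∀ x, 0 ≤ x → 0 ≤ E x
  norm_le : ∀ x, ‖E x‖ ≤ ‖x‖
  map_star : ∀ x, E (star x) = star (E x)
  mul_left : ∀ a ∈ NN X, ∀ x, E (a * x) = a * E x
  mul_right : ∀ a ∈ NN X, ∀ x, E (x * a) = E x * a
  mem : ∀ x ∈ NN (Set.univ : Set α), E x ∈ NN X
  mul_PX : ∀ x, E x * PX X = PX X * x * PX X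

namespace CE

/-- words with letters in `X` -/
def Wd (X : Set α) (w : List α) : Prop := ∀ c ∈ w, c ∈ X

theorem isTail_nil (X : Set α) : IsTail X ([] : List α) := by
  intro c hc; simp at hc

theorem isTail_cons {X : Set α} {c : α} {v : List α} : IsTail X (c :: v) ↔ c ∉ X := by
  simp [IsTail]

theorem wd_nil (X : Set α) : Wd X ([] : List α) := by
  intro c hc; simp at hc

theorem wd_cons {X : Set α} {c : α} {v : List α} : Wd X (c :: v) ↔ c ∈ X ∧ Wd X v := by
  simp [Wd]

theorem decomp_unique {X : Set α} : ∀ {u w v v' : List α}, Wd X u → Wd X w → IsTail X v →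
    IsTail X v' → u ++ v = w ++ v' → u = w ∧ v = v'
  | [], [], _, _, _, _, _, _, h => ⟨rfl, by simpa using h⟩
  | [], c :: w, v, v', _, hw, hv, _, h => by
      simp only [List.nil_append, List.cons_append] at h
      subst h
      exact absurd (wd_cons.1 hw).1 (isTail_cons.1 hv)
  | c :: u, [], v, v', hu, _, _, hv', h => by
      simp only [List.nil_append, List.cons_append] at h
      subst h
      exact absurd (wd_cons.1 hu).1 (isTail_cons.1 hv')
  | c :: u, d :: w, v, v', hu, hw, hv, hv', h => by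
      simp only [List.cons_append, List.cons.injEq] at h
      obtain ⟨h1, h2⟩ := decomp_unique (wd_cons.1 hu).2 (wd_cons.1 hw).2 hv hv' h.2
      exact ⟨by rw [h.1, h1], h2⟩

theorem decomp_exists (X : Set α) : ∀ w : List α, ∃ η v, Wd X η ∧ IsTail X v ∧ w = η ++ v
  | [] => ⟨[], [], wd_nil X, isTail_nil X, rfl⟩
  | c :: w => by
      by_cases hc : c ∈ X
      · obtain ⟨η, v, h1, h2, h3⟩ := decomp_exists X w
        exact ⟨c :: η, v, wd_cons.2 ⟨hc, h1⟩, h2, by rw [h3]; rfl⟩
      · exact ⟨[], c :: w, wd_nil X, isTail_cons.2 hc, rfl⟩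

theorem PX_dl_pos {X : Set α} {w : List α} (h : Wd X w) : PX X (dl w) = dl w := by
  rw [PX, mult_dl, if_pos]; exact h

theorem PX_dl_neg {X : Set α} {w : List α} (h : ¬ Wd X w) : PX X (dl w) = 0 := by
  rw [PX, mult_dl, if_neg]; exact h

theorem PX_proj (X : Set α) : IsStarProjection (PX X : FM α) := mult_proj _

theorem PX_sa (X : Set α) : star (PX X : FM α) = PX X := (PX_proj X).isSelfAdjoint.star_eq

theorem PX_mul_PX (X Y : Set α) : (PX X : FM α) * PX Y = PX (X ∩ Y) := by
  rw [PX, PX, PX, mult_mul_mult]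
  congr 1
  ext w
  simp only [Set.mem_inter_iff, Set.mem_setOf_eq]
  exact ⟨fun h c hc => ⟨h.1 c hc, h.2 c hc⟩,
    fun h => ⟨fun c hc => (h c hc).1, fun c hc => (h c hc).2⟩⟩

theorem PX_idem (X : Set α) : (PX X : FM α) * PX X = PX X := by
  rw [PX_mul_PX, Set.inter_self]

theorem star_Rv_apply (v : List α) (ξ : FH α) (w : List α) :
    (star (Rv v) : FM α) ξ w = ξ (w ++ v) := by
  rw [Rv, star_star, pull_apply]

theorem Rv_nil : (Rv [] : FM α) = 1 := by
  refine ext_dl fun w => ?_
  rw [Rv_dl, List.append_nil, ContinuousLinearMap.one_apply]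

theorem Rv_mul_Rv (u v : List α) : (Rv u : FM α) * Rv v = Rv (v ++ u) := by
  refine ext_dl fun w => ?_
  rw [ContinuousLinearMap.mul_apply, Rv_dl, Rv_dl, Rv_dl, List.append_assoc]

theorem star_Rv_mul_Rv_ne {d e : α} (h : d ≠ e) : (star (Rv [d]) : FM α) * Rv [e] = 0 := by
  refine ext_dl fun w => ?_
  ext u
  rw [ContinuousLinearMap.mul_apply, Rv_dl, star_Rv_apply, dl_apply, if_neg]
  · rfl
  · intro h'
    have := (List.append_inj' h' rfl).2
    simp at this
    exact h this

/-- `V X v` -/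
def V (X : Set α) (v : List α) : FM α := Rv v * PX X

theorem V_nil (X : Set α) : V X [] = PX X := by rw [V, Rv_nil, one_mul]

theorem V_mul_PX (X : Set α) (v : List α) : V X v * PX X = V X v := by
  rw [V, mul_assoc, PX_idem]

theorem star_V_mul_V_self (X : Set α) (v : List α) : star (V X v) * V X v = PX X := by
  rw [V, star_mul, PX_sa, mul_assoc, ← mul_assoc (star (Rv v)), star_Rv_mul_Rv, one_mul, PX_idem]

theorem star_V_mul_V_ne {X : Set α} {v v' : List α} (hv : IsTail X v) (hv' : IsTail X v')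
    (h : v ≠ v') : star (V X v) * V X v' = 0 := by
  refine ext_dl fun w => ?_
  rw [V, V, star_mul, PX_sa]
  simp only [ContinuousLinearMap.mul_apply]
  by_cases hw : Wd X w
  · rw [PX_dl_pos hw, Rv_dl]
    ext u
    rw [PX, mult_apply]
    by_cases hu : Wd X u
    · rw [Set.indicator_of_mem (show u ∈ {w : List α | ∀ c ∈ w, c ∈ X} from hu), star_Rv_apply,
        dl_apply, if_neg]
      · rfl
      · intro h'
        exact h (decomp_unique hu hw hv hv' h').2
    · rw [Set.indicator_of_notMem (show u ∉ {w : List α | ∀ c ∈ w, c ∈ X} from hu)]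
      rfl
  · rw [PX_dl_neg hw]
    simp

theorem ext_V {X : Set α} {x y : FM α} (h : ∀ v, IsTail X v → x * V X v = y * V X v) : x = y := by
  refine ext_dl fun w => ?_
  obtain ⟨η, v, h1, h2, rfl⟩ := decomp_exists X w
  have : dl (η ++ v) = V X v (dl η) := by
    rw [V, ContinuousLinearMap.mul_apply, PX_dl_pos h1, Rv_dl]
  rw [this, ← ContinuousLinearMap.mul_apply, h v h2, ContinuousLinearMap.mul_apply]

theorem comm_V {X : Set α} {a : FM α} (ha : a ∈ NN X) {v : List α} (hv : IsTail X v) :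
    a * V X v = V X v * a := by
  rw [V, ← mul_assoc, tail ha hv, mul_assoc, (mem_NN_iff'.1 ha).2, mul_assoc]

theorem exists_key (X : Set α) : ∃ E : FM α →L[ℂ] FM α, (∀ x, ‖E x‖ ≤ ‖x‖) ∧
    (∀ x, 0 ≤ x → 0 ≤ E x) ∧ (∀ x, E (star x) = star (E x)) ∧
    ∀ x v, IsTail X v → E x * V X v = V X v * x * PX X := by
  classical
  obtain ⟨E, h1, h2, h3, h4⟩ := exists_E (ι := {v : List α // IsTail X v})
    (fun v => V X v.1) (PX X) (fun i j => by
      by_cases h : i = j
      · subst h; rw [if_pos rfl, star_V_mul_V_self]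
      · rw [if_neg h, star_V_mul_V_ne i.2 j.2 (fun h' => h (Subtype.ext h'))])
    (fun i => by
      have := congrArg star (V_mul_PX X i.1)
      rwa [star_mul, PX_sa] at this)
  exact ⟨E, h1, h2, h3, fun x v hv => h4 x ⟨v, hv⟩⟩

theorem zr_eq (d : α) : (zr d : FM α) = star (Rv [d]) + Rv [d] := by
  rw [zr, ra, star_star]

theorem PX_comm_zr {X : Set α} {d : α} (hd : d ∈ X) : PX X * zr d = zr d * PX X := by
  have h1 := PX_comm_ra hd
  have h2 := congrArg star h1
  rw [star_mul, star_mul, PX_sa] at h2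
  rw [zr, mul_add, add_mul, h1, h2]

theorem key_zr {X : Set α} {E : FM α →L[ℂ] FM α}
    (hE : ∀ x v, IsTail X v → E x * V X v = V X v * x * PX X) {x : FM α}
    (hx : ∀ c, x * zr c = zr c * x) (d : α) : E x * zr d = zr d * E x := by
  refine ext_V (X := X) fun v hv => ?_
  rw [mul_assoc (zr d), hE x v hv, mul_assoc (E x)]
  rcases List.eq_nil_or_concat v with rfl | ⟨v', e, rfl⟩
  · have h0 := hE x [] (isTail_nil X)
    rw [V_nil] at h0 ⊢
    by_cases hd : d ∈ X
    · rw [← PX_comm_zr hd, ← mul_assoc, h0, mul_assoc _ (PX X), PX_comm_zr hd, mul_assoc,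
        ← mul_assoc x, hx, ← mul_assoc, ← mul_assoc, PX_comm_zr hd]
      simp only [mul_assoc]
    · have h1 : zr d * PX X = V X [d] := by
        rw [zr, add_mul, ra_mul_PX hd, zero_add, ra, star_star, V]
      rw [h1, hE x [d] (isTail_cons.2 hd), ← h1]
      simp only [mul_assoc]
  · rw [List.concat_eq_append] at hv ⊢
    have ht1 : IsTail X (v' ++ [e] ++ [d]) := by
      cases v' with
      | nil => exact isTail_cons.2 (isTail_cons.1 hv)
      | cons a l => exact isTail_cons.2 (isTail_cons.1 hv)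
    have ht2 : IsTail X v' := by
      cases v' with
      | nil => exact isTail_nil X
      | cons a l => exact isTail_cons.2 (isTail_cons.1 hv)
    have h1 : Rv [d] * V X (v' ++ [e]) = V X (v' ++ [e] ++ [d]) := by
      rw [V, V, ← mul_assoc, Rv_mul_Rv]
    by_cases hde : d = e
    · subst hde
      have h2 : star (Rv [d]) * V X (v' ++ [d]) = V X v' := by
        rw [V, V, ← Rv_mul_Rv, ← mul_assoc, ← mul_assoc, star_Rv_mul_Rv, one_mul]
      have h3 : zr d * V X (v' ++ [d]) = V X v' + V X (v' ++ [d] ++ [d]) := by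
        rw [zr_eq, add_mul, h1, h2]
      rw [h3, mul_add, hE x _ ht1, hE x _ ht2, ← mul_assoc, ← mul_assoc, h3, add_mul, add_mul]
    · have h2 : star (Rv [d]) * V X (v' ++ [e]) = 0 := by
        rw [V, ← Rv_mul_Rv, ← mul_assoc, ← mul_assoc, star_Rv_mul_Rv_ne hde, zero_mul, zero_mul]
      have h3 : zr d * V X (v' ++ [e]) = V X (v' ++ [e] ++ [d]) := by
        rw [zr_eq, add_mul, h1, h2, zero_add]
      rw [h3, hE x _ ht1, ← mul_assoc, ← mul_assoc, h3]

end CE

open CE

theorem exists_condExp (X : Set α) : ∃ E, IsCondExp X E := by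
  obtain ⟨E, h1, h2, h3, h4⟩ := exists_key X
  have hL : ∀ a ∈ NN X, ∀ x, E (a * x) = a * E x := by
    intro a ha x
    refine ext_V (X := X) fun v hv => ?_
    rw [h4 _ v hv, mul_assoc a, h4 _ v hv, ← mul_assoc a, ← mul_assoc a, comm_V ha hv]
    simp only [mul_assoc]
  have hP : ∀ x, E x * PX X = PX X * x * PX X := by
    intro x
    have h0 := h4 x [] (isTail_nil X)
    rwa [V_nil] at h0
  refine ⟨E, ?_, h2, h1, h3, hL, ?_, ?_, hP⟩
  · refine ext_V (X := X) fun v hv => ?_
    rw [h4 _ v hv, mul_one, one_mul, V_mul_PX]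
  · intro a ha x
    have h := hL (star a) (star_mem ha) (star x)
    rw [← star_mul, h3, h3, ← star_mul] at h
    exact star_injective h
  · intro x hx
    refine mem_NN_iff'.2 ⟨key_zr h4 (mem_NN_iff'.1 hx).1, ?_⟩
    have h := congrArg star (hP (star x))
    rw [h3, star_mul, star_mul, star_mul, star_star, star_star, PX_sa] at h
    rw [hP, h, mul_assoc]

/-- the conditional expectation onto `NN X` -/
def EE (X : Set α) : FM α →L[ℂ] FM α := (exists_condExp X).choose

theorem EE_spec (X : Set α) : IsCondExp X (EE X) := (exists_condExp X).choose_spec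

theorem EE_Om (X : Set α) (x : FM α) : EE X x Om = PX X (x Om) := by
  conv_lhs => rw [← PX_Om X, ← ContinuousLinearMap.mul_apply, (EE_spec X).mul_PX]
  rw [ContinuousLinearMap.mul_apply, ContinuousLinearMap.mul_apply, PX_Om]

theorem tau_EE (X : Set α) (x : FM α) : tau (EE X x) = tau x := by
  rw [tau_apply, tau_apply, EE_Om]
  conv_lhs => rw [← PX_sa X, ContinuousLinearMap.star_eq_adjoint,
    ContinuousLinearMap.adjoint_inner_right, PX_Om]

theorem EE_EE (X Y : Set α) : ∀ x ∈ NN (Set.univ : Set α), EE X (EE Y x) = EE (X ∩ Y) x := by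
  intro x hx
  have h1 : EE Y x ∈ NN (Set.univ : Set α) := NN_mono (Set.subset_univ _) ((EE_spec Y).mem x hx)
  have h2 := (mem_NN_iff'.1 ((EE_spec X).mem _ h1)).1
  have h3 := (mem_NN_iff'.1 ((EE_spec (X ∩ Y)).mem _ hx)).1
  rw [← sub_eq_zero]
  refine sep (fun c => by rw [sub_mul, mul_sub, h2, h3]) ?_
  rw [ContinuousLinearMap.sub_apply, EE_Om, EE_Om, EE_Om, ← ContinuousLinearMap.mul_apply (PX X),
    PX_mul_PX, sub_self]

namespace CE

theorem EE_mul_V (Z : Set α) {b : FM α} (hb : b ∈ NN (Set.univ : Set α)) {v : List α}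
    (hv : IsTail Z v) : EE Z b * V Z v = V Z v * b * PX Z := by
  have h1 := (EE_spec Z).mem b hb
  rw [comm_V h1 hv, ← V_mul_PX, mul_assoc, ← (mem_NN_iff'.1 h1).2, (EE_spec Z).mul_PX]
  simp only [mul_assoc]

/-- the set of words whose first letter outside `X ∩ Y` lies in `Y` -/
def SS (X Y : Set α) : Set (List α) :=
  {w | ∃ η c v, w = η ++ c :: v ∧ Wd (X ∩ Y) η ∧ c ∈ Y ∧ c ∉ X}

theorem wd_left {X Y : Set α} {w : List α} (h : Wd (X ∩ Y) w) : Wd X w := fun c hc => (h c hc).1

theorem wd_right {X Y : Set α} {w : List α} (h : Wd (X ∩ Y) w) : Wd Y w := fun c hc => (h c hc).2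

theorem good_case {X Y : Set α} {c : α} (hY : c ∈ Y) (hX : c ∉ X) (v : List α) :
    mult (SS X Y) * V X (c :: v) = V (X ∩ Y) (c :: v) := by
  refine ext_dl fun w => ?_
  rw [V, V]
  simp only [ContinuousLinearMap.mul_apply]
  by_cases hw : Wd X w
  · rw [PX_dl_pos hw, Rv_dl, mult_dl]
    by_cases hz : Wd (X ∩ Y) w
    · rw [PX_dl_pos hz, Rv_dl, if_pos]
      exact ⟨w, c, v, rfl, hz, hY, hX⟩
    · rw [PX_dl_neg hz, map_zero, if_neg]
      rintro ⟨η, c', v', h1, h2, h3, h4⟩
      have := (decomp_unique hw (wd_left h2) (isTail_cons.2 hX) (isTail_cons.2 h4) h1).1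
      exact hz (this ▸ h2)
  · rw [PX_dl_neg hw, PX_dl_neg (fun h => hw (wd_left h))]
    simp

theorem tail_inter_right {X Y : Set α} {v : List α} (hv : IsTail Y v) : IsTail (X ∩ Y) v :=
  fun c hc h => hv c hc h.2

theorem bad_case {X Y : Set α} {v : List α} (hv : IsTail Y v) :
    (1 - mult (SS X Y)) * V Y v = V (X ∩ Y) v := by
  refine ext_dl fun w => ?_
  rw [V, V, ← mult_compl]
  simp only [ContinuousLinearMap.mul_apply]
  by_cases hw : Wd Y w
  · rw [PX_dl_pos hw, Rv_dl, mult_dl]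
    by_cases hz : Wd (X ∩ Y) w
    · rw [PX_dl_pos hz, Rv_dl, if_pos]
      rintro ⟨η, c', v', h1, h2, h3, h4⟩
      have := (decomp_unique hz h2 (tail_inter_right hv) (isTail_cons.2 fun h => h4 h.1) h1).2
      subst this
      exact isTail_cons.1 hv h3
    · rw [PX_dl_neg hz, map_zero, if_neg]
      intro hn
      apply hn
      obtain ⟨η, t, h1, h2, rfl⟩ := decomp_exists (X ∩ Y) w
      cases t with
      | nil => exact absurd (by simpa using h1) hz
      | cons c t =>
        have hcY : c ∈ Y := hw c (by simp)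
        exact ⟨η, c, t ++ v, by simp, h1, hcY, fun h => isTail_cons.1 h2 ⟨h, hcY⟩⟩
  · rw [PX_dl_neg hw, PX_dl_neg (fun h => hw (wd_right h))]
    simp

theorem tail_cases {X Y : Set α} {v : List α} (hv : IsTail (X ∩ Y) v) :
    (∃ c t, v = c :: t ∧ c ∈ Y ∧ c ∉ X) ∨ IsTail Y v := by
  cases v with
  | nil => exact Or.inr (isTail_nil Y)
  | cons c t =>
    by_cases hc : c ∈ Y
    · exact Or.inl ⟨c, t, rfl, hc, fun h => isTail_cons.1 hv ⟨h, hc⟩⟩
    · exact Or.inr (isTail_cons.2 hc)

theorem V_mul_PX_left (X Y : Set α) (v : List α) : V X v * PX (X ∩ Y) = V (X ∩ Y) v := by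
  rw [V, V, mul_assoc, PX_mul_PX, ← Set.inter_assoc, Set.inter_self]

theorem V_mul_PX_right (X Y : Set α) (v : List α) : V Y v * PX (X ∩ Y) = V (X ∩ Y) v := by
  rw [V, V, mul_assoc, PX_mul_PX, Set.inter_comm X Y, ← Set.inter_assoc, Set.inter_self]

theorem PX_mul_compl (X Y : Set α) : PX X * (1 - mult (SS X Y)) = (PX X : FM α) := by
  rw [← mult_compl, PX, mult_mul_mult]
  congr 1
  refine Set.inter_eq_left.2 fun w hw => ?_
  rintro ⟨η, c, v, rfl, -, -, h⟩
  exact h (hw c (by simp))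

theorem compl_Om (X Y : Set α) : (1 - mult (SS X Y) : FM α) Om = Om := by
  rw [← mult_compl, Om, mult_dl, if_pos]
  rintro ⟨η, c, v, h, -⟩
  simp at h

end CE

/-- F5 -/
theorem fock_split (X Y : Set α) : ∃ P : FM α, IsStarProjection P ∧
    (∀ b ∈ NN X, P * b * P = EE (X ∩ Y) b * P) ∧
    (∀ a ∈ NN Y, (1 - P) * a * (1 - P) = EE (X ∩ Y) a * (1 - P)) ∧
    (∀ W ∈ NN (Set.univ : Set α), (1 - P) * W * (1 - P) = 0 → EE X W = 0) := by
  set P : FM α := mult (SS X Y) with hP
  have good : ∀ {c : α}, c ∈ Y → c ∉ X → ∀ v : List α,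
      P * V (X ∩ Y) (c :: v) = V (X ∩ Y) (c :: v) := by
    intro c hY hX v
    conv_lhs => rw [← V_mul_PX_left, ← mul_assoc, good_case hY hX, V_mul_PX]
  have bad : ∀ {v : List α}, IsTail Y v → (1 - P) * V (X ∩ Y) v = V (X ∩ Y) v := by
    intro v hv
    conv_lhs => rw [← V_mul_PX_right, ← mul_assoc, bad_case hv, V_mul_PX]
  refine ⟨P, mult_proj _, fun b hb => ?_, fun a ha => ?_, fun W hW h => ?_⟩
  · have hbU : b ∈ NN (Set.univ : Set α) := NN_mono (Set.subset_univ _) hb
    refine ext_V (X := X ∩ Y) fun v hv => ?_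
    rw [mul_assoc (P * b), mul_assoc (EE (X ∩ Y) b)]
    rcases tail_cases hv with ⟨c, t, rfl, hY, hX⟩ | hv'
    · rw [good hY hX, EE_mul_V _ hbU hv]
      conv_lhs => rw [← V_mul_PX_left, mul_assoc, ← mul_assoc b, comm_V hb (isTail_cons.2 hX),
        ← mul_assoc, ← mul_assoc, good_case hY hX]
    · have h0 : P * V (X ∩ Y) v = 0 := by
        have := bad hv'
        rwa [sub_mul, one_mul, sub_eq_self] at this
      rw [h0, mul_zero, mul_zero]
  · have haU : a ∈ NN (Set.univ : Set α) := NN_mono (Set.subset_univ _) ha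
    refine ext_V (X := X ∩ Y) fun v hv => ?_
    rw [mul_assoc ((1 - P) * a), mul_assoc (EE (X ∩ Y) a)]
    rcases tail_cases hv with ⟨c, t, rfl, hY, hX⟩ | hv'
    · have h0 : (1 - P) * V (X ∩ Y) (c :: t) = 0 := by
        rw [sub_mul, one_mul, good hY hX, sub_self]
      rw [h0, mul_zero, mul_zero]
    · rw [bad hv', EE_mul_V _ haU hv]
      conv_lhs => rw [← V_mul_PX_right, mul_assoc, ← mul_assoc a, comm_V ha hv',
        ← mul_assoc, ← mul_assoc, bad_case hv']
  · refine sep (mem_NN_iff'.1 ((EE_spec X).mem W hW)).1 ?_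
    rw [EE_Om, ← compl_Om X Y, ← PX_mul_compl X Y, ContinuousLinearMap.mul_apply,
      ← ContinuousLinearMap.mul_apply W, ← ContinuousLinearMap.mul_apply (1 - mult (SS X Y)),
      ← mul_assoc, h]
    simp

end

end Vale.Agent.P070
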