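import Mathlib

/-!
# P070 (Naimark's problem): shared definitions.  DO NOT EDIT without telling lead.

Abstract layers:
* J-calculus: `IsState`, `Lset`, `J`, `Jone`, `PP`, `UU`, `Fset`, `gf`.
* alternating words `Alt`.
* `Frame`  : the abstract output of the Fock-space modules.
* `Tower`  : the abstract output of the transfinite recursion.
* `IsIrr`  : irreducible unital representation.
-/

namespace Vale.Agent.P070

open Filter Topology
open scoped InnerProductSpace ComplexOrder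

noncomputable section

section JCalc

variable {M : Type} [CStarAlgebra M] [PartialOrder M] [StarOrderedRing M]

/-- A (global) state on `M`. -/
structure IsState (χ : M →L[ℂ] ℂ) : Prop where
  map_one : χ 1 = 1
  nonneg : ∀ x : M, 0 ≤ x → 0 ≤ χ x

/-- The left kernel of `χ` inside `C`. -/
def Lset (C : StarSubalgebra ℂ M) (χ : M →L[ℂ] ℂ) : Set M :=
  {l | l ∈ C ∧ χ (star l * l) = 0}

/-- `J C χ` = closed span of all `y * l` and `star l * y`, `y : M`, `l ∈ Lset C χ`. -/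
def J (C : StarSubalgebra ℂ M) (χ : M →L[ℂ] ℂ) : Submodule ℂ M :=
  (Submodule.span ℂ {x | ∃ y : M, ∃ l ∈ Lset C χ, x = y * l ∨ x = star l * y}).topologicalClosure

/-- `x ∈ Jone C χ` iff `x - χ x • 1 ∈ J C χ` (lemma `mem_Jone`). -/
def Jone (C : StarSubalgebra ℂ M) (χ : M →L[ℂ] ℂ) : Submodule ℂ M :=
  (J C χ).comap (LinearMap.id - (χ : M →ₗ[ℂ] ℂ).smulRight (1 : M))

theorem mem_Jone {C : StarSubalgebra ℂ M} {χ : M →L[ℂ] ℂ} {x : M} :
    x ∈ Jone C χ ↔ x - χ x • (1 : M) ∈ J C χ := Iff.rfl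

/-- purity-type property of `χ` on `C`. -/
def PP (C : StarSubalgebra ℂ M) (χ : M →L[ℂ] ℂ) : Prop := ∀ a ∈ C, a ∈ Jone C χ

/-- unique-pure-extension-type property from `C` to `C'`. -/
def UU (C C' : StarSubalgebra ℂ M) : Prop :=
  ∀ χ : M →L[ℂ] ℂ, IsState χ → PP C χ → ∀ x ∈ C', x ∈ Jone C χ

/-- index set of the canonical excising net (directed by `≤`, closed under `+`). -/
def Fset (C : StarSubalgebra ℂ M) (χ : M →L[ℂ] ℂ) : Set M := {f | f ∈ C ∧ 0 ≤ f ∧ χ f = 0}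

/-- the canonical excising net `g_f = (1 + f)⁻¹`. -/
def gf (f : M) : M := Ring.inverse (1 + f)

/-- `Ev C χ p`: `p f` holds for all large enough `f ∈ Fset C χ`. -/
def Ev (C : StarSubalgebra ℂ M) (χ : M →L[ℂ] ℂ) (p : M → Prop) : Prop :=
  ∃ f₀ ∈ Fset C χ, ∀ f ∈ Fset C χ, f₀ ≤ f → p f

end JCalc

/-- Alternating words `g₁ k₁ g₂ k₂ ... g_n` (`n` letters from `Gen`, the `k`'s from `K`). -/
inductive Alt {M : Type} [Mul M] (Gen K : Set M) : ℕ → M → Prop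
  | one {g : M} : g ∈ Gen → Alt Gen K 1 g
  | cons {g k W : M} {n : ℕ} : g ∈ Gen → k ∈ K → Alt Gen K n W → Alt Gen K (n + 1) (g * k * W)

section Frame

variable {α : Type} {M : Type} [CStarAlgebra M] [PartialOrder M] [StarOrderedRing M]

/-- Data for a step: two decreasing sequences of projections `T false`, `T true` in `D`,
orthogonal to each other, with equal traces tending to `0`. -/
structure IsData (τ : M →L[ℂ] ℂ) (D : StarSubalgebra ℂ M) (T : Bool → ℕ → M) : Prop where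
  mem : ∀ b m, T b m ∈ D
  proj : ∀ b m, IsStarProjection (T b m)
  dec : ∀ b m, T b (m + 1) * T b m = T b (m + 1)
  orth : T false 0 * T true 0 = 0
  tr_eq : ∀ m, τ (T false m) = τ (T true m)
  tr_lim : Tendsto (fun m => τ (T false m)) atTop (𝓝 0)

/-- `T false` and `T true` both excise `C`, and are unlinked over `C`. -/
structure Excises (T : Bool → ℕ → M) (C : StarSubalgebra ℂ M) : Prop where
  exc : ∀ a ∈ C, ∀ b, ∃ μ : ℂ,
    Tendsto (fun m => ‖T b m * (a - μ • (1 : M)) * T b m‖) atTop (𝓝 0)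
  cross : ∀ a ∈ C, ∀ b, Tendsto (fun m => ‖T b m * a * T (!b) m‖) atTop (𝓝 0)

/-- The properties of the step operators `ℓ` (isometry) and `u` (symmetry) at a new letter `c`. -/
structure IsStep (τ : M →L[ℂ] ℂ) (N : Set α → StarSubalgebra ℂ M) (E : Set α → M →L[ℂ] M)
    (X : Set α) (c : α) (T : Bool → ℕ → M) (ℓ u : M) : Prop where
  u_mem : u ∈ N (insert c X)
  u_sa : star u = u
  u_sq : u * u = 1
  u_T : ∀ b m, u * T b m = T (!b) m * u
  l_iso : star ℓ * ℓ = 1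
  l_T : ∀ b m, ℓ * T b m = T (!b) m * ℓ
  RuR : (1 - ℓ * star ℓ) * u * (1 - ℓ * star ℓ) = 0
  E_zero : ∀ W ∈ N Set.univ, (1 - ℓ * star ℓ) * W * (1 - ℓ * star ℓ) = 0 → E {c}ᶜ W = 0
  phi_span : ∀ a ∈ N {c}ᶜ, ∀ m, star ℓ * a * ℓ * (1 - T false m - T true m) ∈
    Submodule.span ℂ (insert (1 : M) (Set.range (Function.uncurry T)))
  phi_comm : ∀ a ∈ N {c}ᶜ, ∀ b m, star ℓ * a * ℓ * T b m = T b m * (star ℓ * a * ℓ)
  bound : ∀ m, ∃ κ : ℝ, 0 ≤ κ ∧ ∀ x ∈ N {c}ᶜ,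
    ‖x * (1 - T false m - T true m) * ℓ‖ ^ 2 ≤ κ * (τ (star x * x)).re
  zero : (∀ b m, T b m = 0) → ∀ a ∈ N {c}ᶜ, star ℓ * a * ℓ = τ a • (1 : M)

/-- The base family: decreasing projections `p n` of trace `2⁻ⁿ` with `p n` a sum of two
conjugates of `p (n+1)`. -/
structure IsBase (τ : M →L[ℂ] ℂ) (D : StarSubalgebra ℂ M) (p b : ℕ → M) : Prop where
  p_mem : ∀ n, p n ∈ D
  b_mem : ∀ n, b n ∈ D
  p_zero : p 0 = 1
  proj : ∀ n, IsStarProjection (p n)
  dec : ∀ n, p (n + 1) * p n = p (n + 1)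
  tr : ∀ n, τ (p n) = ((1 / 2 : ℝ) ^ n : ℝ)
  split : ∀ n, p n = p (n + 1) + star (b n) * p (n + 1) * b n

variable (α M) in
/-- Abstract output of the Fock-space construction. -/
structure Frame : Type where
  τ : M →L[ℂ] ℂ
  N : Set α → StarSubalgebra ℂ M
  E : Set α → M →L[ℂ] M
  coef : M → List α → ℂ
  τ_state : IsState τ
  τ_trace : ∀ x ∈ N Set.univ, ∀ y ∈ N Set.univ, τ (x * y) = τ (y * x)
  τ_faith : ∀ x ∈ N Set.univ, τ (star x * x) = 0 → x = 0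
  N_closed : ∀ X, IsClosed (N X : Set M)
  N_mono : ∀ {X Y}, X ⊆ Y → N X ≤ N Y
  coef_inj : ∀ X, ∀ x ∈ N X, ∀ y ∈ N X,
    (∀ w : List α, (∀ c ∈ w, c ∈ X) → coef x w = coef y w) → x = y
  E_one : ∀ X, E X 1 = 1
  E_nonneg : ∀ X x, 0 ≤ x → 0 ≤ E X x
  E_norm : ∀ X x, ‖E X x‖ ≤ ‖x‖
  E_star : ∀ X x, E X (star x) = star (E X x)
  E_mul_left : ∀ X, ∀ a ∈ N X, ∀ x, E X (a * x) = a * E X x
  E_mul_right : ∀ X, ∀ a ∈ N X, ∀ x, E X (x * a) = E X x * a
  E_mem : ∀ X, ∀ x ∈ N Set.univ, E X x ∈ N X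
  E_E : ∀ X Y, ∀ x ∈ N Set.univ, E X (E Y x) = E (X ∩ Y) x
  split : ∀ X Y, ∃ P : M, IsStarProjection P ∧
    (∀ b ∈ N X, P * b * P = E (X ∩ Y) b * P) ∧
    (∀ a ∈ N Y, (1 - P) * a * (1 - P) = E (X ∩ Y) a * (1 - P)) ∧
    (∀ W ∈ N Set.univ, (1 - P) * W * (1 - P) = 0 → E X W = 0)
  step : ∀ X c, c ∉ X → ∀ T, IsData τ (N X) T → ∃ ℓ u, IsStep τ N E X c T ℓ u
  base : ∀ e : ℕ → α, Function.Injective e → ∃ p b, IsBase τ (N (Set.range e)) p b

end Frame

section Tower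

variable {Λ : Type} {M : Type} [CStarAlgebra M] [PartialOrder M] [StarOrderedRing M]

/-- letters attached to a set of nodes -/
def XS (S : Set Λ) : Set (ℕ ⊕ Λ) := Set.range Sum.inl ∪ Sum.inr '' S

/-- the closed star-subalgebra generated by the base family and the `u β`, `β ∈ S`. -/
def gen (p b : ℕ → M) (u : Λ → M) (S : Set Λ) : StarSubalgebra ℂ M :=
  (StarAlgebra.adjoin ℂ (Set.range p ∪ Set.range b ∪ u '' S)).topologicalClosure

variable (Λ M) in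
/-- Abstract output of the transfinite recursion. -/
structure Tower [LinearOrder Λ] : Type where
  F : Frame (ℕ ⊕ Λ) M
  ch : Λ → Set Λ
  p : ℕ → M
  b : ℕ → M
  u : Λ → M
  ℓ : Λ → M
  T : Λ → Bool → ℕ → M
  ch_lt : ∀ β, ∀ γ ∈ ch β, γ < β
  ch_countable : ∀ β, (ch β).Countable
  base : IsBase F.τ (F.N (XS ∅)) p b
  data : ∀ β, IsData F.τ (F.N (XS (ch β))) (T β)
  T_mem : ∀ β i m, T β i m ∈ gen p b u (ch β)
  excises : ∀ β, Excises (T β) (gen p b u (Set.Iio β))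
  step : ∀ β, IsStep F.τ F.N F.E (XS (ch β)) (Sum.inr β) (T β) (ℓ β) (u β)
  catches : ∀ S : Set Λ, S.Countable → (∀ β ∈ S, ch β ⊆ S) → ∀ T' : Bool → ℕ → M,
    IsData F.τ (gen p b u S) T' → Excises T' (gen p b u Set.univ) →
    ∃ β, S ⊆ ch β ∧ T β = T'

variable [LinearOrder Λ] (𝒯 : Tower Λ M)

/-- `B_S` -/
def Tower.B (S : Set Λ) : StarSubalgebra ℂ M := gen 𝒯.p 𝒯.b 𝒯.u S

/-- `S` is closed under children -/
def Tower.Cl (S : Set Λ) : Prop := ∀ β ∈ S, 𝒯.ch β ⊆ S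

/-- `E_S` -/
def Tower.ES (S : Set Λ) : M →L[ℂ] M := 𝒯.F.E (XS S)

instance (S : Set Λ) : IsClosed (𝒯.B S : Set M) :=
  StarSubalgebra.isClosed_topologicalClosure _

end Tower

/-- irreducible unital representation of a unital C*-algebra on a nonzero Hilbert space -/
structure IsIrr {A : Type} [CStarAlgebra A] {H : Type*} [NormedAddCommGroup H]
    [InnerProductSpace ℂ H] [CompleteSpace H] (π : A →⋆ₐ[ℂ] (H →L[ℂ] H)) : Prop where
  nontriv : Nontrivial H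
  irr : ∀ K : Submodule ℂ H, IsClosed (K : Set H) → (∀ a : A, ∀ x ∈ K, π a x ∈ K) →
    K = ⊥ ∨ K = ⊤

end

end Vale.Agent.P070
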