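import Vale.Agent.P070.Defs

/-!
# Full Fock space over an alphabet: definitions and the basic lemmas (F1, F2, F3, F6)

`FH α = ℓ²(List α)`, `Om = δ_[]`, `la c` left annihilation (`star (la c)` left creation),
`ra c` right annihilation, `zr c = ra c + star (ra c)`, `Rv v` appends the word `v` on the right,
`PX X` the projection on words with letters in `X`, `NN X` the commutant of `PX X` and all `zr c`.

PLAN.
* `cyclic`: a closed subspace containing `Om`, invariant under `zr c` (`c ∈ X`), contains `dl w` for
  all words `w` in `X` (strong induction on length, appending on the right: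
  `dl (w ++ [c]) = zr c (dl w) - ra c (dl w)`, `ra c (dl w)` is `0` or `dl w.dropLast`), hence the
  range of `PX X` (`lp.hasSum_single`).
* `sep`: kernel of `x` is closed, contains `Om`, invariant under all `zr c`.
* `star_Om`: let `Jc ξ w = conj (ξ w.reverse)` (antiunitary involution).  Left operators
  `zl c = la c + star (la c)` commute with all `zr d` (`la_ra_comm`), `zl c Om = zr c Om`,
  `Jc ∘ zr c = zl c ∘ Jc`.  For a monomial `y = zr c₁ ⋯ zr cₙ`: `star y Om = Jc (y Om)`.
  So `⟪star x Om, y Om⟫ = ⟪Om, y x Om⟫ = ⟪Jc (y Om), x Om⟫ = ⟪Jc (x Om), y Om⟫`; density by `cyclic`.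
  (Equivalently: the set of `η` with `⟪star x Om, η⟫ = ⟪Jc (x Om), η⟫` ... any route is fine.)
* `mem_NN_iff` (←): `x` and `star x` both commute with the `zr c` and map `Om` into the range of
  `PX X` (`star_Om`), so both leave the range of `PX X` invariant (`cyclic`, `PX X` commutes with
  `zr c` for `c ∈ X`), so `x` commutes with `PX X`.
* `tail`: strong induction on the length of `v`, written `v = v' ++ [d]`:
  `Rv (v' ++ [d]) * PX X = zr d * Rv v' * PX X - ra d * Rv v' * PX X`, and `ra d * Rv v' * PX X` is
  `0` or `Rv v'.dropLast * PX X` (for `v' = []` we have `d ∉ X` and `ra d * PX X = 0`).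
* `la_mul_mul_star_la` (F6): check on `dl w`: `star (la c) (dl w) = Rv (c :: w) Om`, use `tail`.
-/

namespace Vale.Agent.P070

open Filter Topology
open scoped InnerProductSpace ComplexOrder

noncomputable section

abbrev FH (α : Type) : Type := lp (fun _ : List α => ℂ) 2
abbrev FM (α : Type) : Type := FH α →L[ℂ] FH α

variable {α : Type}

open Classical in
/-- basis vector -/
def dl (w : List α) : FH α := lp.single 2 w (1 : ℂ)

/-- vacuum vector -/
def Om : FH α := dl []

theorem exists_wpull (j : List α → List α) (hj : Function.Injective j) (m : List α → ℂ)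
    (hm : ∀ w, ‖m w‖ ≤ 1) :
    ∃ A : FM α, ‖A‖ ≤ 1 ∧ ∀ (ξ : FH α) (w : List α), A ξ w = m w * ξ (j w) := by
  classical
  have h2 : 0 < (2 : ENNReal).toReal := by norm_num
  have key : ∀ (ξ : FH α) (s : Finset (List α)),
      ∑ w ∈ s, ‖m w * ξ (j w)‖ ^ (2 : ENNReal).toReal ≤ ‖ξ‖ ^ (2 : ENNReal).toReal := by
    intro ξ s
    refine le_trans ?_ (lp.sum_rpow_le_norm_rpow h2 ξ (s.image j))
    rw [Finset.sum_image (fun a _ b _ h => hj h)]
    refine Finset.sum_le_sum fun w _ => Real.rpow_le_rpow (norm_nonneg _) ?_ h2.le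
    rw [norm_mul]
    exact mul_le_of_le_one_left (norm_nonneg _) (hm w)
  let L : FH α →ₗ[ℂ] FH α :=
    { toFun := fun ξ => ⟨fun w => m w * ξ (j w), memℓp_gen' (key ξ)⟩
      map_add' := fun ξ η => lp.ext (funext fun w => by
        change m w * (ξ (j w) + η (j w)) = m w * ξ (j w) + m w * η (j w)
        ring)
      map_smul' := fun c ξ => lp.ext (funext fun w => by
        change m w * (c * ξ (j w)) = c * (m w * ξ (j w))
        ring) }
  have hL : ∀ ξ, ‖L ξ‖ ≤ 1 * ‖ξ‖ := fun ξ => by
    rw [one_mul]
    exact lp.norm_le_of_forall_sum_le h2 (norm_nonneg _) (key ξ)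
  exact ⟨L.mkContinuous 1 hL, L.mkContinuous_norm_le zero_le_one hL, fun _ _ => rfl⟩

theorem exists_pull (j : List α → List α) (hj : Function.Injective j) :
    ∃ A : FM α, ‖A‖ ≤ 1 ∧ ∀ (ξ : FH α) (w : List α), A ξ w = ξ (j w) := by
  obtain ⟨A, h1, h2⟩ := exists_wpull j hj (fun _ => 1) (fun _ => by simp)
  exact ⟨A, h1, fun ξ w => by rw [h2, one_mul]⟩

theorem exists_mult (s : Set (List α)) :
    ∃ A : FM α, ∀ (ξ : FH α) (w : List α), A ξ w = s.indicator (fun v => ξ v) w := by
  classical
  obtain ⟨A, _, h2⟩ := exists_wpull (α := α) id Function.injective_id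
    (fun w => if w ∈ s then 1 else 0) (fun w => by split_ifs <;> simp)
  refine ⟨A, fun ξ w => ?_⟩
  rw [h2]
  by_cases h : w ∈ s <;> simp [h]

/-- `(pull j ξ) w = ξ (j w)` -/
def pull (j : List α → List α) (hj : Function.Injective j) : FM α := (exists_pull j hj).choose

/-- multiplication by the indicator of a set of words -/
def mult (s : Set (List α)) : FM α := (exists_mult s).choose

def la (c : α) : FM α := pull (List.cons c) List.cons_injective
/-- `Rv v (dl w) = dl (w ++ v)` -/
def Rv (v : List α) : FM α := star (pull (fun w => w ++ v) (List.append_left_injective v))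
def ra (c : α) : FM α := star (Rv [c])
def zr (c : α) : FM α := ra c + star (ra c)
def PX (X : Set α) : FM α := mult {w | ∀ c ∈ w, c ∈ X}
def tau : FM α →L[ℂ] ℂ := (innerSL ℂ (Om : FH α)).comp (ContinuousLinearMap.apply ℂ (FH α) Om)
def NN (X : Set α) : StarSubalgebra ℂ (FM α) :=
  StarSubalgebra.centralizer ℂ (insert (PX X) (Set.range zr))
/-- `v` is empty or starts with a letter outside `X` -/
def IsTail (X : Set α) (v : List α) : Prop := ∀ c ∈ v.head?, c ∉ X

theorem pull_apply (j : List α → List α) (hj : Function.Injective j) (ξ : FH α) (w : List α) :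
    pull j hj ξ w = ξ (j w) := (exists_pull j hj).choose_spec.2 ξ w

theorem norm_pull_le (j : List α → List α) (hj : Function.Injective j) : ‖pull j hj‖ ≤ 1 :=
  (exists_pull j hj).choose_spec.1

theorem mult_apply (s : Set (List α)) (ξ : FH α) (w : List α) :
    mult s ξ w = s.indicator (fun v => ξ v) w := (exists_mult s).choose_spec ξ w

theorem tau_apply (x : FM α) : tau x = ⟪(Om : FH α), x Om⟫_ℂ := rfl

theorem inner_dl (w : List α) (ξ : FH α) : ⟪dl w, ξ⟫_ℂ = ξ w := by
  classical
  unfold dl
  rw [lp.inner_single_left]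
  simp

theorem norm_dl (w : List α) : ‖(dl w : FH α)‖ = 1 := by
  classical
  unfold dl
  rw [lp.norm_single (by norm_num)]
  simp

open Classical in
theorem dl_apply (w v : List α) : (dl w : FH α) v = if v = w then 1 else 0 := by
  unfold dl
  rw [lp.single_apply, Pi.single_apply]

/-- operators agreeing on the basis vectors are equal -/
theorem ext_dl {x y : FM α} (h : ∀ w, x (dl w) = y (dl w)) : x = y := by
  classical
  refine lp.ext_continuousLinearMap (by norm_num) fun w => ?_
  refine ContinuousLinearMap.ext_ring ?_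
  exact h w

theorem star_pull_dl (j : List α → List α) (hj : Function.Injective j) (w : List α) :
    (star (pull j hj) : FM α) (dl w) = dl (j w) := by
  refine ext_inner_right ℂ fun ξ => ?_
  rw [ContinuousLinearMap.star_eq_adjoint, ContinuousLinearMap.adjoint_inner_left, inner_dl,
    inner_dl, pull_apply]

open Classical in
theorem pull_dl (j : List α → List α) (hj : Function.Injective j) (w : List α) :
    pull j hj (dl w) = if h : ∃ v, j v = w then dl h.choose else 0 := by
  refine lp.ext (funext fun v => ?_)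
  rw [pull_apply, dl_apply]
  split_ifs with h1 h2 h2
  · rw [dl_apply, if_pos (hj (h1.trans h2.choose_spec.symm))]
  · exact absurd ⟨v, h1⟩ h2
  · rw [dl_apply, if_neg (fun h : v = h2.choose => h1 (by rw [h]; exact h2.choose_spec))]
  · rfl

open Classical in
theorem mult_dl (s : Set (List α)) (w : List α) :
    mult s (dl w) = if w ∈ s then dl w else 0 := by
  refine lp.ext (funext fun v => ?_)
  rw [mult_apply]
  by_cases h : v = w
  · subst h
    by_cases h1 : v ∈ s <;> simp [h1]
  · have : (dl w : FH α) v = 0 := by rw [dl_apply, if_neg h]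
    by_cases h1 : w ∈ s <;> by_cases h2 : v ∈ s <;> simp [h1, h2, this]

theorem mult_proj (s : Set (List α)) : IsStarProjection (mult s : FM α) := by
  classical
  refine ⟨?_, ?_⟩
  · refine ContinuousLinearMap.ext fun ξ => lp.ext (funext fun w => ?_)
    rw [mul_apply_eq_comp, mult_apply, mult_apply]
    by_cases h : w ∈ s <;> simp [h, mult_apply]
  · refine ext_dl fun w => ext_inner_right ℂ fun ξ => ?_
    rw [ContinuousLinearMap.star_eq_adjoint, ContinuousLinearMap.adjoint_inner_left, inner_dl,
      mult_apply, mult_dl]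
    by_cases h : w ∈ s <;> simp [h, inner_dl]

theorem mult_mul_mult (s t : Set (List α)) : (mult s : FM α) * mult t = mult (s ∩ t) := by
  refine ContinuousLinearMap.ext fun ξ => lp.ext (funext fun w => ?_)
  rw [mul_apply_eq_comp, mult_apply, mult_apply]
  by_cases h : w ∈ s <;> by_cases h' : w ∈ t <;> simp [h, h', mult_apply]

theorem mult_univ : (mult Set.univ : FM α) = 1 := by
  refine ContinuousLinearMap.ext fun ξ => lp.ext (funext fun w => ?_)
  rw [mult_apply]
  simp

theorem mult_compl (s : Set (List α)) : (mult sᶜ : FM α) = 1 - mult s := by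
  refine ContinuousLinearMap.ext fun ξ => lp.ext (funext fun w => ?_)
  change mult sᶜ ξ w = ξ w - mult s ξ w
  rw [mult_apply, mult_apply]
  by_cases h : w ∈ s <;> simp [h]

theorem PX_univ : (PX Set.univ : FM α) = 1 := by
  rw [← mult_univ, PX]
  congr 1
  ext w
  simp

theorem PX_Om (X : Set α) : PX X (Om : FH α) = Om := by
  unfold PX Om
  rw [mult_dl, if_pos]
  simp

theorem Rv_dl (v w : List α) : Rv v (dl w) = dl (w ++ v) := by
  exact star_pull_dl _ _ w

theorem star_la_dl (c : α) (w : List α) : (star (la c) : FM α) (dl w) = dl (c :: w) := by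
  exact star_pull_dl _ _ w

theorem star_Rv_mul_Rv (v : List α) : star (Rv v) * Rv v = (1 : FM α) := by
  classical
  refine ext_dl fun w => lp.ext (funext fun u => ?_)
  rw [mul_apply_eq_comp, Rv_dl, Rv, star_star, pull_apply,
    one_apply_eq_self, dl_apply, dl_apply]
  simp

theorem la_apply (c : α) (ξ : FH α) (w : List α) : la c ξ w = ξ (c :: w) := pull_apply _ _ ξ w

theorem ra_apply (c : α) (ξ : FH α) (w : List α) : ra c ξ w = ξ (w ++ [c]) := by
  rw [ra, Rv, star_star, pull_apply]

theorem star_ra_dl (c : α) (w : List α) : (star (ra c) : FM α) (dl w) = dl (w ++ [c]) := by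
  rw [ra, star_star, Rv_dl]

open Classical in
theorem la_dl_cons (c d : α) (w : List α) :
    la c (dl (d :: w)) = if c = d then dl w else 0 := by
  refine lp.ext (funext fun u => ?_)
  rw [la_apply, dl_apply]
  by_cases h : c = d
  · rw [if_pos h, dl_apply]
    simp [h]
  · rw [if_neg h, if_neg (by simp [h])]
    rfl

theorem PX_apply (X : Set α) (ξ : FH α) (w : List α) :
    PX X ξ w = Set.indicator {w : List α | ∀ c ∈ w, c ∈ X} (fun v => ξ v) w := mult_apply _ ξ w

open Classical in
theorem la_mul_star_la (c d : α) : la c * star (la d) = if c = d then (1 : FM α) else 0 := by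
  refine ext_dl fun w => ?_
  rw [mul_apply_eq_comp, star_la_dl, la_dl_cons]
  split_ifs <;> rfl

theorem la_Om (c : α) : la c (Om : FH α) = 0 := by
  classical
  refine lp.ext (funext fun u => ?_)
  rw [la_apply, Om, dl_apply, if_neg (by simp)]
  rfl

theorem la_ra (c d : α) : la c * ra d = ra d * la c := by
  refine ContinuousLinearMap.ext fun ξ => lp.ext (funext fun w => ?_)
  rw [mul_apply_eq_comp, mul_apply_eq_comp, la_apply, ra_apply, ra_apply,
    la_apply, List.cons_append]

open Classical in
/-- `[ℓ_c^*, r_d] = δ_{cd} P_Ω` -/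
theorem la_ra_comm (c d : α) :
    la c * star (ra d) - star (ra d) * la c = if c = d then (mult {[]} : FM α) else 0 := by
  refine ext_dl fun w => ?_
  rw [sub_apply, mul_apply_eq_comp, mul_apply_eq_comp,
    star_ra_dl]
  cases w with
  | nil =>
    rw [show la c (dl []) = 0 from la_Om c, map_zero, sub_zero, List.nil_append, la_dl_cons]
    split_ifs
    · rw [mult_dl, if_pos (Set.mem_singleton _)]
    · rfl
  | cons e w =>
    rw [List.cons_append, la_dl_cons, la_dl_cons]
    have h0 : (if c = d then (mult {[]} : FM α) else 0) (dl (e :: w)) = 0 := by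
      split_ifs
      · rw [mult_dl, if_neg (by simp)]
      · rfl
    rw [h0]
    split_ifs
    · rw [star_ra_dl, sub_self]
    · rw [map_zero, sub_self]

theorem zr_sa (c : α) : star (zr c) = zr c := by
  rw [zr, star_add, star_star, add_comm]

theorem PX_comm_ra {X : Set α} {c : α} (hc : c ∈ X) : PX X * ra c = ra c * PX X := by
  refine ContinuousLinearMap.ext fun ξ => lp.ext (funext fun w => ?_)
  rw [mul_apply_eq_comp, mul_apply_eq_comp, ra_apply, PX_apply, PX_apply]
  by_cases h : ∀ e ∈ w, e ∈ X
  · rw [Set.indicator_of_mem (by exact h), Set.indicator_of_mem, ra_apply]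
    intro e he
    rcases List.mem_append.1 he with h1 | h1
    · exact h e h1
    · rw [List.mem_singleton.1 h1]; exact hc
  · rw [Set.indicator_of_notMem (by exact h), Set.indicator_of_notMem]
    exact fun h1 => h fun e he => h1 e (List.mem_append_left _ he)

theorem PX_comm_la {X : Set α} {c : α} (hc : c ∈ X) : PX X * la c = la c * PX X := by
  refine ContinuousLinearMap.ext fun ξ => lp.ext (funext fun w => ?_)
  rw [mul_apply_eq_comp, mul_apply_eq_comp, la_apply, PX_apply, PX_apply]
  by_cases h : ∀ e ∈ w, e ∈ X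
  · rw [Set.indicator_of_mem (by exact h), Set.indicator_of_mem, la_apply]
    intro e he
    rcases List.mem_cons.1 he with h1 | h1
    · rw [h1]; exact hc
    · exact h e h1
  · rw [Set.indicator_of_notMem (by exact h), Set.indicator_of_notMem]
    exact fun h1 => h fun e he => h1 e (List.mem_cons_of_mem _ he)

theorem ra_mul_PX {X : Set α} {c : α} (hc : c ∉ X) : ra c * PX X = 0 := by
  refine ContinuousLinearMap.ext fun ξ => lp.ext (funext fun w => ?_)
  rw [mul_apply_eq_comp, ra_apply, PX_apply, Set.indicator_of_notMem]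
  · rfl
  · exact fun h => hc (h c (by simp))

theorem la_mul_PX {X : Set α} {c : α} (hc : c ∉ X) : la c * PX X = 0 := by
  refine ContinuousLinearMap.ext fun ξ => lp.ext (funext fun w => ?_)
  rw [mul_apply_eq_comp, la_apply, PX_apply, Set.indicator_of_notMem]
  · rfl
  · exact fun h => hc (h c (by simp))

theorem cyclic (X : Set α) (K : Submodule ℂ (FH α)) (hK : IsClosed (K : Set (FH α)))
    (h0 : Om ∈ K) (hz : ∀ c ∈ X, ∀ ξ ∈ K, zr c ξ ∈ K) (ξ : FH α) : PX X ξ ∈ K := by
  sorry

/-- `Om` is separating for the commutant of the `zr c` -/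
theorem sep {x : FM α} (hx : ∀ c, x * zr c = zr c * x) (h : x Om = 0) : x = 0 := by
  sorry

theorem star_Om {x : FM α} (hx : ∀ c, x * zr c = zr c * x) (w : List α) :
    (star x : FM α) Om w = starRingEnd ℂ (x Om w.reverse) := by
  sorry

theorem mem_NN_iff {X : Set α} {x : FM α} :
    x ∈ NN X ↔ (∀ c, x * zr c = zr c * x) ∧ PX X (x Om) = x Om := by
  sorry

theorem mem_NN_iff' {X : Set α} {x : FM α} :
    x ∈ NN X ↔ (∀ c, x * zr c = zr c * x) ∧ x * PX X = PX X * x := by
  sorry

theorem NN_closed (X : Set α) : IsClosed (NN X : Set (FM α)) := by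
  sorry

theorem NN_mono {X Y : Set α} (h : X ⊆ Y) : NN X ≤ NN Y := by
  sorry

theorem tau_state : IsState (tau : FM α →L[ℂ] ℂ) := by
  sorry

theorem tau_trace : ∀ x ∈ NN (Set.univ : Set α), ∀ y ∈ NN (Set.univ : Set α),
    tau (x * y) = tau (y * x) := by
  sorry

theorem tau_star_mul_self (x : FM α) : tau (star x * x) = ((‖x Om‖ ^ 2 : ℝ) : ℂ) := by
  sorry

theorem tau_faith : ∀ x ∈ NN (Set.univ : Set α), tau (star x * x) = 0 → x = 0 := by
  sorry

theorem coef_inj (X : Set α) : ∀ x ∈ NN X, ∀ y ∈ NN X,
    (∀ w : List α, (∀ c ∈ w, c ∈ X) → x Om w = y Om w) → x = y := by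
  sorry

/-- F3, tail lemma -/
theorem tail {X : Set α} {a : FM α} (ha : a ∈ NN X) {v : List α} (hv : IsTail X v) :
    a * Rv v * PX X = Rv v * a * PX X := by
  sorry

/-- F6 -/
theorem la_mul_mul_star_la {c : α} {a : FM α} (ha : a ∈ NN ({c}ᶜ : Set α)) :
    la c * a * star (la c) = tau a • (1 : FM α) := by
  sorry

end

end Vale.Agent.P070
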