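import Vale.Agent.P070.Defs

/-!
# J-calculus, part 1: states, the net `gf`, the characterisation of `J`, `UU` bookkeeping

PLAN.
* `mem_J_of_exists`: `x = g x g + (1 - g) x g + x (1 - g)` with `1 - g ∈ Lset`, self-adjoint.
* `ev_of_mem_J`: for `l ∈ Lset`, `f ≥ n • star l * l`:
  `‖l g‖² = ‖g (star l * l) g‖ ≤ ‖g f g‖ / n ≤ 1 / n` (`g f g = g (1 - g) ≤ 1`, `g` commutes with `f`).
  The set of `x` satisfying the conclusion is a closed subspace (`‖g‖ ≤ 1`, `Ev.and`).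
* `J_le_of_PP`: for `l ∈ Lset C'`, `star l * l ∈ J C χ`, so `‖l g‖ → 0` along the net of `C`.
* `ev_norm_mul_gf` (BT): `‖x g‖² = ‖g x* x g‖ ≤ ‖g (x* x - χ(x* x)) g‖ + χ(x* x)`.
-/

namespace Vale.Agent.P070

open Filter Topology
open scoped ComplexOrder

variable {M : Type} [CStarAlgebra M] [PartialOrder M] [StarOrderedRing M]
variable {C C' C'' : StarSubalgebra ℂ M} {χ ψ : M →L[ℂ] ℂ}

theorem IsState.map_star (h : IsState χ) (x : M) : χ (star x) = starRingEnd ℂ (χ x) := by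
  sorry

theorem IsState.mono (h : IsState χ) {x y : M} (hxy : x ≤ y) : (χ x).re ≤ (χ y).re := by
  sorry

theorem IsState.re_nonneg (h : IsState χ) {x : M} (hx : 0 ≤ x) : 0 ≤ (χ x).re := by
  sorry

theorem IsState.eq_re (h : IsState χ) {x : M} (hx : 0 ≤ x) : χ x = ((χ x).re : ℂ) := by
  sorry

theorem IsState.cauchy_schwarz (h : IsState χ) (x y : M) :
    ‖χ (star y * x)‖ ^ 2 ≤ (χ (star y * y)).re * (χ (star x * x)).re := by
  sorry

theorem IsState.norm_le (h : IsState χ) (x : M) : ‖χ x‖ ≤ ‖x‖ := by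
  sorry

theorem IsState.re_conj_le (h : IsState χ) (x y : M) :
    (χ (star y * (star x * x) * y)).re ≤ ‖x‖ ^ 2 * (χ (star y * y)).re := by
  sorry

theorem IsState.mul_eq_zero (h : IsState χ) {l : M} (hl : χ (star l * l) = 0) (y : M) :
    χ (y * l) = 0 ∧ χ (star l * y) = 0 := by
  sorry

theorem gf_nonneg {f : M} (hf : 0 ≤ f) : 0 ≤ gf f := by
  sorry

theorem gf_le_one {f : M} (hf : 0 ≤ f) : gf f ≤ 1 := by
  sorry

theorem norm_gf_le {f : M} (hf : 0 ≤ f) : ‖gf f‖ ≤ 1 := by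
  sorry

theorem star_gf {f : M} (hf : 0 ≤ f) : star (gf f) = gf f := by
  sorry

theorem gf_mul {f : M} (hf : 0 ≤ f) : gf f * (1 + f) = 1 ∧ (1 + f) * gf f = 1 := by
  sorry

theorem gf_sq_le {f : M} (hf : 0 ≤ f) : gf f * gf f ≤ gf f := by
  sorry

theorem gf_anti {f f' : M} (hf : 0 ≤ f) (h : f ≤ f') : gf f' ≤ gf f := by
  sorry

theorem gf_mem (hC : IsClosed (C : Set M)) {f : M} (hf : 0 ≤ f) (hfC : f ∈ C) : gf f ∈ C := by
  sorry

theorem one_sub_gf_mem (hC : IsClosed (C : Set M)) (hχ : IsState χ) {f : M}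
    (hf : f ∈ Fset C χ) : 1 - gf f ∈ Lset C χ := by
  sorry

theorem map_gf_mul (hχ : IsState χ) {f : M} (hf : f ∈ Fset C χ) (x : M) :
    χ (gf f * x) = χ x ∧ χ (x * gf f) = χ x := by
  sorry

theorem zero_mem_Fset : (0 : M) ∈ Fset C χ := by
  sorry

theorem add_mem_Fset {f f' : M} (hf : f ∈ Fset C χ) (hf' : f' ∈ Fset C χ) :
    f + f' ∈ Fset C χ := by
  sorry

theorem Ev.mono {p q : M → Prop} (h : Ev C χ p) (hpq : ∀ f ∈ Fset C χ, p f → q f) :
    Ev C χ q := by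
  sorry

theorem Ev.and {p q : M → Prop} (h : Ev C χ p) (h' : Ev C χ q) :
    Ev C χ (fun f => p f ∧ q f) := by
  sorry

theorem Ev.exists {p : M → Prop} (h : Ev C χ p) : ∃ f ∈ Fset C χ, p f := by
  sorry

theorem J_closed : IsClosed (J C χ : Set M) := by
  sorry

theorem Jone_closed : IsClosed (Jone C χ : Set M) := by
  sorry

theorem mul_mem_J {l : M} (hl : l ∈ Lset C χ) (y : M) : y * l ∈ J C χ ∧ star l * y ∈ J C χ := by
  sorry

theorem star_mem_J {x : M} (hx : x ∈ J C χ) : star x ∈ J C χ := by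
  sorry

theorem map_eq_zero_of_mem_J (hχ : IsState χ) {x : M} (hx : x ∈ J C χ) : χ x = 0 := by
  sorry

theorem J_le_Jone (hχ : IsState χ) : J C χ ≤ Jone C χ := by
  sorry

theorem one_mem_Jone (hχ : IsState χ) : (1 : M) ∈ Jone C χ := by
  sorry

theorem mem_Jone_of_approx (hχ : IsState χ) {x : M}
    (h : ∀ ε > 0, ∃ μ : ℂ, ∃ y ∈ J C χ, ‖x - μ • (1 : M) - y‖ ≤ ε) : x ∈ Jone C χ := by
  sorry

theorem J_mono (h : C ≤ C') : J C χ ≤ J C' χ := by
  sorry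

theorem J_congr (h : ∀ a ∈ C, χ a = ψ a) : J C χ = J C ψ := by
  sorry

theorem PP_congr (h : ∀ a ∈ C, χ a = ψ a) (hP : PP C χ) : PP C ψ := by
  sorry

theorem mem_J_of_exists (hC : IsClosed (C : Set M)) (hχ : IsState χ) {x : M}
    (h : ∀ ε > 0, ∃ f ∈ Fset C χ, ‖gf f * x * gf f‖ ≤ ε) : x ∈ J C χ := by
  sorry

theorem ev_of_mem_J {x : M} (hx : x ∈ J C χ) {ε : ℝ} (hε : 0 < ε) :
    Ev C χ (fun f => ‖gf f * x * gf f‖ ≤ ε) := by
  sorry

theorem ev_norm_mul_gf (hχ : IsState χ) {x : M} (hx : star x * x ∈ Jone C χ) {ε : ℝ}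
    (hε : 0 < ε) : Ev C χ (fun f => ‖x * gf f‖ ^ 2 ≤ (χ (star x * x)).re + ε) := by
  sorry

theorem J_le_of_PP (hC : IsClosed (C : Set M)) (hχ : IsState χ)
    (h : ∀ x ∈ C', x ∈ Jone C χ) : J C' χ ≤ J C χ := by
  sorry

theorem UU.of_le (h : C' ≤ C) : UU C C' := by
  sorry

theorem UU.mono_right (h : UU C C') (h' : C'' ≤ C') : UU C C'' := by
  sorry

theorem UU.trans (hC : IsClosed (C : Set M)) (hCC' : C ≤ C') (h : UU C C') (h' : UU C' C'') :
    UU C C'' := by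
  sorry

theorem UU.of_dense (h : ∀ x ∈ C', x ∈ closure {y | ∃ D : StarSubalgebra ℂ M, UU C D ∧ y ∈ D}) :
    UU C C' := by
  sorry

end Vale.Agent.P070
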