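import Vale.Agent.P070.JBasic

/-!
# J-calculus, part 2: diffuseness, excision transfer, normal forms

PLAN.
* `estimate`: `W = P W + W P - P W P` type identity: `W = P * W + (1 - P) * W * P`.
* `diffuse` (DF): by `split`, `1 = ∑ star y_i * p n * y_i` with `y_i ∈ C` (induction on `n`: some
  `y ∈ C` has `χ (star y * p n * y) ≠ 0`).  Normalise `x = c • p n * y`, `χ (star x * x) = 1`.
  Eventually `‖g (x* x - 1) g‖ ≤ η`, so `τ(g g) ≤ η + τ(g x* x g)`,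
  `τ(g x* x g) = τ(p (x g g x*) p) ≤ ‖x g‖² τ(p) ≤ (1 + η) 2⁻ⁿ`.
* `eq_prime` (EQ'): `c₀ = inf_{h ∈ Hs} re χ(a h a*) ≥ δ`.  Given `η`, take `h ∈ Hs` with
  `c := re χ(a h a*) ≤ c₀ + η`, then `g = gf f` with `‖g (a h a* - c) g‖ ≤ η`, then `v = g * a` and
  `k ≤ h` with `‖k (v* x v - μ) k‖ ≤ η`.  Put `y = c⁻¹ • g a k a* ∈ C`, `c' = re χ(a k a*) ∈ [c-η, c]`.
  `χ y = c'/c`; `χ(y* y) ≤ ‖g a k a* g‖ c'/c² ≤ (c + η) c'/c²` (since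
  `k a* g g a k ≤ ‖√k a* g g a √k‖ • k` and `‖√k a* g g a √k‖ = ‖g a k a* g‖ ≤ ‖g a h a* g‖`).
  So `χ((1-y)*(1-y))` is small; `ev_norm_mul_gf` gives `g'` with `s = (1-y) g'` small and
  `l = (1-y)(1-g') ∈ Lset`; `1 = y + s + l`, `x = (y+s)* x (y+s) + l* x + (y+s)* x l`,
  `y* x y = c⁻² a k (v* x v) k a* ≈ μ w`, `w = c⁻² a k k a* ∈ C`, `‖y‖ ≤ ‖a‖²/δ`; use `PP` for `w`
  and `mem_Jone_of_approx`.
* `link`: `eq_prime` with `Hs = {gf f' | f' ∈ Fset C₀ ψ}` and `δ' = δ²/‖a‖²`: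
  for `h ∈ Hs`, `g = gf f` (`f ∈ Fset C χ`): `‖g a h‖² = ‖h a* g g a h‖ ≥ re ψ(a* g g a) ≥ δ²/‖a‖²`
  (`map_gf_mul`, Cauchy-Schwarz `|ψ(a* (g a))|² ≤ ψ(a* a) ψ(a* g g a)`), while eventually
  `‖h a* g‖² ≤ re χ(a h h a*) + ε ≤ re χ(a h a*) + ε`.  For `k ≤ h` use `gf_anti`, `f' + f''`.
* `excise_transfer`: `PP C χ` since `a - μ = Q(a-μ)Q + (1-Q)(a-μ)Q + (a-μ)(1-Q)`, `1 - Q ∈ Lset`.
  Every `y ∈ J C χ` has `Q m y Q m → 0`: for `l ∈ Lset`, the excision constant of `l* l` is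
  `χ(l* l) = 0` (as `χ(Q z Q) = χ z`), so `‖l Q m‖ → 0`.
* `nf_induction`: `V₀ = span (C ∪ {x W z})` contains `1` and is closed under left multiplication by
  `C` and by `Gen` (for `g * (x W z)`: `x = k + (x - k)`, `g k W z` is of the form; `W = g'` or
  `W = g' k' W'` and `g (x-k) g' ∈ C ⊔ span Gen`), so it contains `Algebra.adjoin (C ∪ Gen)`, which
  is star-closed, so it contains `StarAlgebra.adjoin`; pass to closures.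
-/

namespace Vale.Agent.P070

open Filter Topology
open scoped ComplexOrder

variable {M : Type} [CStarAlgebra M] [PartialOrder M] [StarOrderedRing M]
variable {C C' : StarSubalgebra ℂ M} {χ ψ : M →L[ℂ] ℂ}

theorem estimate {P W : M} (hP : IsStarProjection P) (hW : (1 - P) * W * (1 - P) = 0) (x y : M) :
    ‖x * W * y‖ ≤ ‖W‖ * (‖x * P‖ * ‖y‖ + ‖x‖ * ‖P * y‖) := by
  sorry

theorem Alt.zero_corner {Gen K : Set M} {R : M} (hG : ∀ g ∈ Gen, R * g * R = 0)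
    (hK : ∀ k ∈ K, (1 - R) * k * (1 - R) = 0) {n : ℕ} {W : M} (hW : Alt Gen K n W) :
    R * W * R = 0 := by
  sorry

theorem Alt.mem {Gen K : Set M} {D : StarSubalgebra ℂ M} (hG : Gen ⊆ D) (hK : K ⊆ D) {n : ℕ}
    {W : M} (hW : Alt Gen K n W) : W ∈ D := by
  sorry

/-- decomposition from the left -/
theorem Alt.left {Gen K : Set M} {n : ℕ} {W : M} (hW : Alt Gen K n W) :
    (n = 1 ∧ W ∈ Gen) ∨ ∃ m g k W', n = m + 1 ∧ g ∈ Gen ∧ k ∈ K ∧ Alt Gen K m W' ∧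
      W = g * k * W' := by
  sorry

/-- decomposition from the right -/
theorem Alt.right {Gen K : Set M} {n : ℕ} {W : M} (hW : Alt Gen K n W) :
    (n = 1 ∧ W ∈ Gen) ∨ ∃ m g k W', n = m + 1 ∧ g ∈ Gen ∧ k ∈ K ∧ Alt Gen K m W' ∧
      W = W' * k * g := by
  sorry

theorem nf_induction (C : StarSubalgebra ℂ M) (Gen K : Set M) (hGs : ∀ g ∈ Gen, star g ∈ Gen)
    (hdec : ∀ x ∈ C, ∃ k ∈ K, ∀ g ∈ Gen, ∀ g' ∈ Gen,
      g * (x - k) * g' ∈ C.toSubalgebra.toSubmodule ⊔ Submodule.span ℂ Gen)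
    (hK : K ⊆ C) (V : Submodule ℂ M) (hV : IsClosed (V : Set M)) (hC : ∀ x ∈ C, x ∈ V)
    (hW : ∀ x ∈ C, ∀ z ∈ C, ∀ n W, Alt Gen K n W → x * W * z ∈ V) :
    ∀ y ∈ (StarAlgebra.adjoin ℂ ((C : Set M) ∪ Gen)).topologicalClosure, y ∈ V := by
  sorry

/-- DF -/
theorem diffuse (hC : IsClosed (C : Set M)) (hχ : IsState χ) (hP : PP C χ) {τ : M →L[ℂ] ℂ}
    (hτ : IsState τ) (htr : ∀ x ∈ C, ∀ y ∈ C, τ (x * y) = τ (y * x)) {p b : ℕ → M}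
    (hb : IsBase τ C p b) {ε : ℝ} (hε : 0 < ε) :
    Ev C χ (fun f => (τ (gf f * gf f)).re ≤ ε) := by
  sorry

/-- EQ' -/
theorem eq_prime (hC : IsClosed (C : Set M)) (hχ : IsState χ) (hP : PP C χ) (Hs : Set M)
    (hne : Hs.Nonempty) (hH : ∀ h ∈ Hs, h ∈ C ∧ 0 ≤ h ∧ h ≤ 1) {a : M} (ha : a ∈ C) {δ : ℝ}
    (hδ : 0 < δ) (hχa : ∀ h ∈ Hs, δ ≤ (χ (a * h * star a)).re) {x : M}
    (hx : ∀ v ∈ C, ∀ ε > 0, ∀ h ∈ Hs, ∃ k ∈ Hs, k ≤ h ∧ ∃ μ : ℂ,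
      ‖k * (star v * x * v - μ • (1 : M)) * k‖ ≤ ε) : x ∈ Jone C χ := by
  sorry

theorem link {C₀ : StarSubalgebra ℂ M} (hC₀ : IsClosed (C₀ : Set M)) (hC : IsClosed (C : Set M))
    (h₀ : C₀ ≤ C) (h₁ : C ≤ C') (hχ : IsState χ) (hψ : IsState ψ) (hP : PP C χ)
    (hψC' : ∀ x ∈ C', x ∈ Jone C₀ ψ) {a : M} (ha : a ∈ C) {δ : ℝ} (hδ : 0 < δ)
    (hlink : ∀ f ∈ Fset C χ, δ ≤ (ψ (star a * gf f * a)).re) : ∀ x ∈ C', x ∈ Jone C χ := by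
  sorry

theorem excise_transfer (hχ : IsState χ) (Q : ℕ → M) (hQ : ∀ m, Q m ∈ C)
    (hp : ∀ m, IsStarProjection (Q m)) (hχQ : ∀ m, χ (Q m) = 1)
    (hexc : ∀ a ∈ C, ∃ μ : ℂ, Tendsto (fun m => ‖Q m * (a - μ • (1 : M)) * Q m‖) atTop (𝓝 0))
    (hU : UU C C') :
    ∀ x ∈ C', Tendsto (fun m => ‖Q m * (x - χ x • (1 : M)) * Q m‖) atTop (𝓝 0) := by
  sorry

end Vale.Agent.P070
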