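import Vale.Agent.P070.Defs

/-!
# Kadison-transitivity toolkit for an irreducible representation (no Kaplansky density needed)

PLAN.
* `schur`: self-adjoint `T` in the commutant: if the real spectrum has two points, take continuous
  `f, g` with `f * g = 0`, `f(T) ≠ 0 ≠ g(T)`; closure of the range of `f(T)` is a closed invariant
  subspace, nonzero, and killed by `g(T)`, contradiction.  So spectrum is one point, `T` scalar.
  General `T`: real and imaginary parts (the commutant is star-closed).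
* `dense_vec`: in `PiLp 2 (fun _ : Fin n => H)` let `K` = closure of `{(π a (ξ i))_i}`, `P` its
  projection; `P` commutes with the diagonal action, so each matrix entry `P i j` commutes with `π`,
  hence is a scalar (`schur`), hence `P` commutes with the diagonal action of any `T`;
  `ξ ∈ K` (a = 1) gives `T ξ ∈ K`.
* `dense_sa`: real subspace `V = {(π b (ξ i))_i : b self-adjoint}`; if `η` is real-orthogonal to `V`,
  the functional `ω(S) = ∑ ⟪η i, S ξ i⟫ + ∑ ⟪ξ i, S η i⟫` vanishes on `π b` for self-adjoint `b`, so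
  on all `π a`, so on every `S` by `dense_vec` for the `2n` vectors `ξ, η`; so `η` is real-orthogonal
  to `(T ξ i)_i` for self-adjoint `T`.  (Use `InnerProductSpace.rclikeToReal` / `complexToReal`, or
  real Hahn-Banach + Riesz.)
* `exists_sa_move`: `ξ + η ⟂ ξ - η`; `T = 1 - 2 * (projection on the span of ξ - η)`.
* `cayley`: `w = 2 (b - i)⁻¹`, `v = b * w - 1 = (b + i)(b - i)⁻¹`, `‖(b - i)⁻¹‖ ≤ 1`,
  `v - i = (1 - i)(b - i)⁻¹(b - 1)`, `v + i = (1 + i)(b - i)⁻¹(b + 1)`,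
  `v η - i ξ = ((v - i)(ξ + η) - (v + i)(ξ - η))/2`.
* `transitive`: phase + `exists_sa_move` + `cayley` give, for unit `ξ` and any `η`, some `a` with
  `‖a‖ ≤ ‖η‖` and `‖π a ξ - η‖ ≤ ‖η‖/2`; iterate, geometric series.
* `ker_decomp` (K3): `a₀ = a - ω(a)`, `η = π a₀ ξ ⟂ ξ`; `T = rankOne ξ η` (`T x = ⟪η,x⟫ ξ`) has
  `T ξ = 0`, `star T ξ = η`; `T = T₁ + i T₂`, `dense_sa` gives `b = b₁ + i b₂` with `π b ξ ≈ 0`,
  `π (star b) ξ ≈ η`; correct with `transitive`: `m = b - c`, `l = a₀ - star m - c'`.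
* `unitary_equiv_of_state`: `π₁ a ξ₁ ↦ π₂ a ξ₂` is isometric between dense subspaces
  (`LinearIsometryEquiv.extend`/`LinearMap.extendOfNorm`/`LinearEquiv.extendOfIsometry`...).
-/

namespace Vale.Agent.P070

open scoped InnerProductSpace

variable {A : Type} [CStarAlgebra A]
variable {H : Type*} [NormedAddCommGroup H] [InnerProductSpace ℂ H] [CompleteSpace H]
variable {π : A →⋆ₐ[ℂ] (H →L[ℂ] H)}

theorem schur (hπ : IsIrr π) (T : H →L[ℂ] H) (hT : ∀ a, T * π a = π a * T) :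
    ∃ μ : ℂ, T = μ • (1 : H →L[ℂ] H) := by
  sorry

theorem dense_vec (hπ : IsIrr π) {n : ℕ} (ξ : Fin n → H) (T : H →L[ℂ] H) {ε : ℝ} (hε : 0 < ε) :
    ∃ a : A, ∀ i, ‖π a (ξ i) - T (ξ i)‖ < ε := by
  sorry

theorem dense_sa (hπ : IsIrr π) {n : ℕ} (ξ : Fin n → H) (T : H →L[ℂ] H) (hT : star T = T)
    {ε : ℝ} (hε : 0 < ε) : ∃ b : A, star b = b ∧ ∀ i, ‖π b (ξ i) - T (ξ i)‖ < ε := by
  sorry

theorem exists_sa_move (hπ : IsIrr π) {ξ η : H} (hξ : ‖ξ‖ = 1) (hη : ‖η‖ = 1)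
    (him : (⟪ξ, η⟫_ℂ).im = 0) {ε : ℝ} (hε : 0 < ε) :
    ∃ b : A, star b = b ∧ ‖π b (ξ + η) - (ξ + η)‖ < ε ∧ ‖π b (ξ - η) + (ξ - η)‖ < ε := by
  sorry

theorem cayley (π : A →⋆ₐ[ℂ] (H →L[ℂ] H)) {b : A} (hb : star b = b) :
    ∃ v w : A, star v * v = 1 ∧ v * star v = 1 ∧ v + 1 = b * w ∧
      ∀ (ξ η : H) (ε : ℝ), ‖π b (ξ + η) - (ξ + η)‖ ≤ ε → ‖π b (ξ - η) + (ξ - η)‖ ≤ ε →
        ‖π v η - Complex.I • ξ‖ ≤ 2 * ε := by
  sorry

theorem transitive (hπ : IsIrr π) {ξ : H} (hξ : ‖ξ‖ = 1) (η : H) :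
    ∃ a : A, π a ξ = η ∧ ‖a‖ ≤ 2 * ‖η‖ := by
  sorry

/-- K3 -/
theorem ker_decomp (hπ : IsIrr π) {ξ : H} (hξ : ‖ξ‖ = 1) (a : A) {ε : ℝ} (hε : 0 < ε) :
    ∃ l m : A, π l ξ = 0 ∧ π m ξ = 0 ∧ ‖a - ⟪ξ, π a ξ⟫_ℂ • (1 : A) - l - star m‖ < ε := by
  sorry

theorem unitary_equiv_of_state {H₂ : Type*} [NormedAddCommGroup H₂] [InnerProductSpace ℂ H₂]
    [CompleteSpace H₂] {π₂ : A →⋆ₐ[ℂ] (H₂ →L[ℂ] H₂)} (hπ : IsIrr π) (hπ₂ : IsIrr π₂)
    {ξ : H} {ζ : H₂} (hξ : ‖ξ‖ = 1) (h : ∀ a, ⟪ξ, π a ξ⟫_ℂ = ⟪ζ, π₂ a ζ⟫_ℂ) :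
    ∃ U : H ≃ₗᵢ[ℂ] H₂, ∀ a x, U (π a x) = π₂ a (U x) := by
  sorry

end Vale.Agent.P070
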