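import Mathlib

/-!
# Two Hilbert-space lemmas: sign of an injective self-adjoint operator, Wold grading

PLAN.
* `exists_polar`: `m = CFC.sqrt (z*z)` (or `CFC.abs z`), `‖m ξ‖ = ‖z ξ‖`, `m` self-adjoint injective so
  dense range; `u` = extension of `m ξ ↦ z ξ` (`LinearMap.extendOfNorm` or similar), `u * m = z`.
  Anything commuting with `z*z` commutes with `m` (`Commute.cfc`-type lemmas).
  `A z = z B`, `B z = z A` give `A`, `B` commute with `z*z`; `A u m = A z = z B = u m B = u B m`.
  With `A = B = z` and `A = B = m`: `u` commutes with `z`, `m`; `u u m m = u z m = u m z = z z = m m`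
  so `u u = 1` (dense range twice); `u` isometric, so `star u = star u * u * u = u`.
  (Alternative: `u = P₊ - P₋` with `P₊` the projection on the closure of the range of `z⁺`.)
* `exists_wold`: `Γ ξ = ∑ (-1)^n ℓ^n R (star ℓ)^n ξ`, `R = 1 - ℓ star ℓ`, an orthogonal series
  (`ℓ^n R (star ℓ)^n = ℓ^n (star ℓ)^n - ℓ^(n+1) (star ℓ)^(n+1)` are mutually orthogonal projections).
-/

namespace Vale.Agent.P070

open scoped InnerProductSpace

variable {H : Type*} [NormedAddCommGroup H] [InnerProductSpace ℂ H] [CompleteSpace H]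

theorem dense_range_of_sa (m : H →L[ℂ] H) (hm : star m = m) (hinj : ∀ ξ, m ξ = 0 → ξ = 0) :
    DenseRange m := by
  have h1 : (m.range)ᗮ = ⊥ := by
    rw [ContinuousLinearMap.orthogonal_range, ← ContinuousLinearMap.star_eq_adjoint, hm]
    exact LinearMap.ker_eq_bot'.2 hinj
  have h2 := Submodule.topologicalClosure_eq_top_iff.2 h1
  exact Submodule.dense_iff_topologicalClosure_eq_top.2 h2

omit [CompleteSpace H] in
theorem eq_of_mul_dense {m x y : H →L[ℂ] H} (hm : DenseRange m) (h : x * m = y * m) : x = y := by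
  ext ξ
  refine hm.induction_on ξ (isClosed_eq x.continuous y.continuous) ?_
  intro η
  exact congrArg (fun T : H →L[ℂ] H => T η) h

theorem norm_sq_eq_re_inner (x : H →L[ℂ] H) (ξ : H) :
    ‖x ξ‖ ^ 2 = (⟪ξ, (star x * x) ξ⟫_ℂ).re := by
  rw [ContinuousLinearMap.mul_apply, ContinuousLinearMap.star_eq_adjoint,
    ContinuousLinearMap.adjoint_inner_right, inner_self_eq_norm_sq_to_K]
  norm_cast

theorem exists_polar (z : H →L[ℂ] H) (hz : star z = z) (hinj : ∀ ξ, z ξ = 0 → ξ = 0) :
    ∃ u : H →L[ℂ] H, star u = u ∧ u * u = 1 ∧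
      ∀ A B : H →L[ℂ] H, A * z = z * B → B * z = z * A → A * u = u * B := by
  have hzz : 0 ≤ z * z := by
    have := star_mul_self_nonneg z
    rwa [hz] at this
  obtain ⟨m, hm0, hmm, hcomm⟩ : ∃ m : H →L[ℂ] H, 0 ≤ m ∧ m * m = z * z ∧
      ∀ A, Commute (z * z) A → Commute m A := by
    refine ⟨CFC.sqrt (z * z), CFC.sqrt_nonneg _, CFC.sqrt_mul_sqrt_self _ hzz, ?_⟩
    intro A hA
    exact hA.cfcₙ_nnreal _
  have hms : star m = m := (IsSelfAdjoint.of_nonneg hm0).star_eq
  have hnorm : ∀ ξ, ‖z ξ‖ = ‖m ξ‖ := by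
    intro ξ
    have h1 := norm_sq_eq_re_inner z ξ
    have h2 := norm_sq_eq_re_inner m ξ
    rw [hz] at h1
    rw [hms, hmm, ← h1] at h2
    exact (pow_left_inj₀ (norm_nonneg _) (norm_nonneg _) two_ne_zero).1 h2.symm
  have hminj : ∀ ξ, m ξ = 0 → ξ = 0 := by
    intro ξ h
    apply hinj
    rw [← norm_eq_zero, hnorm, h, norm_zero]
  have hd : DenseRange m := dense_range_of_sa m hms hminj
  obtain ⟨u, hu⟩ : ∃ u : H →L[ℂ] H, u * m = z := by
    refine ⟨(z : H →ₗ[ℂ] H).extendOfNorm (m : H →ₗ[ℂ] H), ?_⟩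
    ext ξ
    exact LinearMap.extendOfNorm_eq (f := (z : H →ₗ[ℂ] H)) (e := (m : H →ₗ[ℂ] H)) hd
      ⟨1, fun x => by simpa using (hnorm x).le⟩ ξ
  have key : ∀ A B : H →L[ℂ] H, A * z = z * B → B * z = z * A → A * u = u * B := by
    intro A B h1 h2
    have hB : Commute (z * z) B := by
      change z * z * B = B * (z * z)
      rw [mul_assoc, ← h1, ← mul_assoc, ← h2, mul_assoc]
    apply eq_of_mul_dense hd
    rw [mul_assoc, hu, h1, mul_assoc, ← (hcomm B hB).eq, ← mul_assoc, hu]
  have hmz : m * z = z * m := (hcomm z (by change z * z * z = z * (z * z); rw [mul_assoc])).eq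
  have hum : m * u = u * m := key m m hmz hmz
  have huz : z * u = u * z := key z z rfl rfl
  have huu : u * u = 1 := by
    apply eq_of_mul_dense hd
    apply eq_of_mul_dense hd
    calc u * u * m * m = u * (u * m) * m := by simp only [mul_assoc]
      _ = u * (z * m) := by rw [hu, mul_assoc]
      _ = u * m * z := by rw [← hmz, mul_assoc]
      _ = 1 * m * m := by rw [hu, one_mul, hmm]
  have hsu : star u * u = 1 := by
    have h1 : m * (star u * u) * m = m * 1 * m := by
      have h2 : m * star u = z := by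
        have := congrArg star hu
        rwa [star_mul, hms, hz] at this
      calc m * (star u * u) * m = (m * star u) * (u * m) := by simp only [mul_assoc]
        _ = m * 1 * m := by rw [h2, hu, mul_one, hmm]
    have h3 := eq_of_mul_dense hd h1
    have h4 := congrArg star h3
    simp only [star_mul, star_star, star_one, hms] at h4
    exact eq_of_mul_dense hd h4
  refine ⟨u, ?_, huu, key⟩
  calc star u = star u * (u * u) := by rw [huu, mul_one]
    _ = u := by rw [← mul_assoc, hsu, one_mul]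

omit [CompleteSpace H] in
theorem map_closure_span (A : H →L[ℂ] H) (S : Set H) (L : Submodule ℂ H)
    (hL : IsClosed (L : Set H)) (h : ∀ s ∈ S, A s ∈ L) :
    ∀ x ∈ (Submodule.span ℂ S).topologicalClosure, A x ∈ L := by
  have : (Submodule.span ℂ S).topologicalClosure ≤ L.comap (A : H →ₗ[ℂ] H) := by
    apply Submodule.topologicalClosure_minimal
    · exact Submodule.span_le.2 h
    · exact hL.preimage A.continuous
  exact fun x hx => this hx

theorem mul_starProjection (A : H →L[ℂ] H) (K L : Submodule ℂ H) [K.HasOrthogonalProjection]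
    [L.HasOrthogonalProjection] (h1 : ∀ x ∈ K, A x ∈ L) (h2 : ∀ x ∈ L, (star A) x ∈ K) :
    L.starProjection * A = A * K.starProjection := by
  ext x
  change L.starProjection (A x) = A (K.starProjection x)
  apply Submodule.eq_starProjection_of_mem_orthogonal
  · exact h1 _ (K.starProjection_apply_mem x)
  · rw [← map_sub, Submodule.mem_orthogonal]
    intro l hl
    rw [← ContinuousLinearMap.adjoint_inner_left, ← ContinuousLinearMap.star_eq_adjoint]
    exact Submodule.inner_right_of_mem_orthogonal (h2 l hl)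
      (K.sub_starProjection_mem_orthogonal x)

theorem exists_wold (ℓ : H →L[ℂ] H) (hℓ : star ℓ * ℓ = 1) :
    ∃ Γ : H →L[ℂ] H, Γ * ℓ = -(ℓ * Γ) ∧ Γ * star ℓ = -(star ℓ * Γ) ∧
      Γ * (1 - ℓ * star ℓ) = 1 - ℓ * star ℓ ∧ (1 - ℓ * star ℓ) * Γ = 1 - ℓ * star ℓ := by
  obtain ⟨R, hR⟩ : ∃ R : H →L[ℂ] H, R = 1 - ℓ * star ℓ := ⟨_, rfl⟩
  have hlR : star ℓ * R = 0 := by
    rw [hR, mul_sub, mul_one, ← mul_assoc, hℓ, one_mul, sub_self]
  have hRs : star R = R := by
    rw [hR]; simp
  rw [← hR]
  let S : ℕ → Set H := fun i => {x | ∃ n ξ, x = (ℓ ^ (2 * n + i) * R) ξ}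
  let K : ℕ → Submodule ℂ H := fun i => (Submodule.span ℂ (S i)).topologicalClosure
  have hKc : ∀ i, IsClosed (K i : Set H) := fun i => Submodule.isClosed_topologicalClosure _
  haveI : ∀ i, CompleteSpace (K i) := fun i => (hKc i).completeSpace_coe
  have hS : ∀ i n ξ, (ℓ ^ (2 * n + i) * R) ξ ∈ K i := fun i n ξ =>
    Submodule.le_topologicalClosure _ (Submodule.subset_span ⟨n, ξ, rfl⟩)
  have up : ∀ k ξ, ℓ ((ℓ ^ k * R) ξ) = (ℓ ^ (k + 1) * R) ξ := by
    intro k ξ
    rw [← ContinuousLinearMap.mul_apply, ← mul_assoc, ← pow_succ']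
  have down : ∀ k ξ, (star ℓ) ((ℓ ^ (k + 1) * R) ξ) = (ℓ ^ k * R) ξ := by
    intro k ξ
    rw [← ContinuousLinearMap.mul_apply, pow_succ', ← mul_assoc, ← mul_assoc, hℓ, one_mul]
  have a01 : ∀ x ∈ K 0, ℓ x ∈ K 1 := by
    refine map_closure_span ℓ _ _ (hKc 1) ?_
    rintro _ ⟨n, ξ, rfl⟩
    rw [up]
    exact hS 1 n ξ
  have a10 : ∀ x ∈ K 1, ℓ x ∈ K 0 := by
    refine map_closure_span ℓ _ _ (hKc 0) ?_
    rintro _ ⟨n, ξ, rfl⟩
    rw [up]
    exact hS 0 (n + 1) ξ
  have b10 : ∀ x ∈ K 1, (star ℓ) x ∈ K 0 := by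
    refine map_closure_span (star ℓ) _ _ (hKc 0) ?_
    rintro _ ⟨n, ξ, rfl⟩
    rw [down]
    exact hS 0 n ξ
  have b01 : ∀ x ∈ K 0, (star ℓ) x ∈ K 1 := by
    refine map_closure_span (star ℓ) _ _ (hKc 1) ?_
    rintro _ ⟨n, ξ, rfl⟩
    rcases n with _ | n
    · have : (star ℓ) ((ℓ ^ (2 * 0 + 0) * R) ξ) = 0 := by
        rw [← ContinuousLinearMap.mul_apply]
        simp [hlR]
      rw [this]
      exact zero_mem _
    · have := down (2 * n + 1) ξ
      rw [show 2 * (n + 1) + 0 = 2 * n + 1 + 1 by ring, this]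
      exact hS 1 n ξ
  have e1 := mul_starProjection ℓ (K 0) (K 1) a01 b10
  have e2 := mul_starProjection ℓ (K 1) (K 0) a10 b01
  have hΓs : star ((K 0).starProjection - (K 1).starProjection) =
      (K 0).starProjection - (K 1).starProjection := by
    rw [star_sub, (isSelfAdjoint_starProjection (K 0)).star_eq,
      (isSelfAdjoint_starProjection (K 1)).star_eq]
  have h1 : ((K 0).starProjection - (K 1).starProjection) * ℓ =
      -(ℓ * ((K 0).starProjection - (K 1).starProjection)) := by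
    rw [sub_mul, mul_sub, e1, e2, neg_sub]
  have h3 : ((K 0).starProjection - (K 1).starProjection) * R = R := by
    ext ξ
    have r0 : (K 0).starProjection (R ξ) = R ξ := by
      apply Submodule.starProjection_eq_self_iff.2
      simpa using hS 0 0 ξ
    have r1 : (K 1).starProjection (R ξ) = 0 := by
      rw [Submodule.starProjection_apply_eq_zero_iff, Submodule.mem_orthogonal]
      intro x hx
      have hRx : R x ∈ (⊥ : Submodule ℂ H) := by
        refine map_closure_span R _ _ (by simp) ?_ x hx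
        rintro _ ⟨n, η, rfl⟩
        have hRl : R * ℓ = 0 := by
          have := congrArg star hlR
          simpa [hRs] using this
        rw [← ContinuousLinearMap.mul_apply, pow_succ', ← mul_assoc, ← mul_assoc, hRl]
        simp
      rw [← ContinuousLinearMap.adjoint_inner_left, ← ContinuousLinearMap.star_eq_adjoint, hRs,
        (Submodule.mem_bot ℂ).1 hRx, inner_zero_left]
    simp [r0, r1]
  refine ⟨(K 0).starProjection - (K 1).starProjection, h1, ?_, h3, ?_⟩
  · have := congrArg star h1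
    rw [star_mul, star_neg, star_mul, hΓs] at this
    rw [this, neg_neg]
  · have := congrArg star h3
    rwa [star_mul, hΓs, hRs] at this

end Vale.Agent.P070
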