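import Vale.Agent.P070.JBasic
import Vale.Agent.P070.KTool

/-!
# States: extension, vector states of irreducible representations, existence of pure states

PLAN.
* `isState_of_norm`: for self-adjoint `x`, `χ x` is real (`‖x + i t‖² ≤ ‖x‖² + t²`); for `0 ≤ x`,
  `‖‖x‖ • 1 - x‖ ≤ ‖x‖`.  (If `M` is trivial `χ 1 = 1` is absurd.)
* `exists_state_ext`: `exists_extension_norm_eq` (complex Hahn-Banach) on `C` as a subspace.
* `PP_of_irr`: `ker_decomp`; `π l ξ = 0` gives `χ (star l * l) = ‖π l ξ‖² = 0`;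
  `mem_Jone_of_approx`.
* `exists_pure`: treat `A := ↥C` as a C*-algebra.  `St` = `{φ : WeakDual ℂ A | φ 1 = 1 ∧ ‖φ‖ ≤ 1}` is
  weak-* compact convex (Banach-Alaoglu); every `φ ∈ St` extends to a state of `M`
  (`exists_state_ext`), hence is positive on elements of `C` that are `≥ 0` in `M`.
  `Fv φ = ⨅ z ∈ Z, re φ z` is upper semicontinuous, and affine because `Z` is directed downward.
  For `z ≥ 0` there is `φ ∈ St` with `φ z = ‖z‖` (`‖z‖ ∈ spectrum`; Hahn-Banach from `span {1,z}`,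
  or a character of the commutative `StarAlgebra.elemental`), so by compactness + directedness
  `s = max Fv ≥ δ`.  The set `{φ ∈ St | ∀ z ∈ Z, s ≤ re φ z}` is a nonempty compact face; take an
  extreme point (`IsCompact.extremePoints_nonempty`, real scalars), it is extreme in `St`.
  GNS (`PositiveLinearMap.GNS`, `gnsStarAlgHom`, with `CStarAlgebra.spectralOrder A` as a local order,
  or a hand-made GNS) of an extreme state is irreducible: if `P` projects on a closed invariant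
  subspace, `φ₁ a = ⟪ξ, π a (P ξ)⟫`, `t = ‖P ξ‖²`; for `0 < t < 1`, `φ = t (φ₁/t) + (1-t)(φ₂/(1-t))`
  forces `φ₁ = t φ`, so `P = t`, absurd; `t = 0` gives `P = 0`, `t = 1` gives `P = 1` (cyclicity).
  Finish with `PP_of_irr`.
-/

namespace Vale.Agent.P070

open Filter Topology
open scoped InnerProductSpace ComplexOrder

variable {M : Type} [CStarAlgebra M] [PartialOrder M] [StarOrderedRing M]

theorem isState_of_norm {χ : M →L[ℂ] ℂ} (h1 : χ 1 = 1) (hn : ∀ x, ‖χ x‖ ≤ ‖x‖) : IsState χ := by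
  sorry

theorem exists_state_ext (C : StarSubalgebra ℂ M) (φ : C →L[ℂ] ℂ) (h1 : φ 1 = 1)
    (hn : ∀ x, ‖φ x‖ ≤ ‖x‖) : ∃ χ : M →L[ℂ] ℂ, IsState χ ∧ ∀ a : C, χ a = φ a := by
  sorry

theorem PP_of_irr (C : StarSubalgebra ℂ M) [IsClosed (C : Set M)] {H : Type*}
    [NormedAddCommGroup H] [InnerProductSpace ℂ H] [CompleteSpace H]
    {π : C →⋆ₐ[ℂ] (H →L[ℂ] H)} (hπ : IsIrr π) {ξ : H} (hξ : ‖ξ‖ = 1) :
    ∃ χ : M →L[ℂ] ℂ, IsState χ ∧ (∀ a : C, χ a = ⟪ξ, π a ξ⟫_ℂ) ∧ PP C χ := by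
  sorry

theorem exists_pure (C : StarSubalgebra ℂ M) (hC : IsClosed (C : Set M)) (Z : Set M)
    (hne : Z.Nonempty) (hZ : ∀ z ∈ Z, z ∈ C ∧ 0 ≤ z)
    (hdir : ∀ z₁ ∈ Z, ∀ z₂ ∈ Z, ∃ z ∈ Z, z ≤ z₁ ∧ z ≤ z₂) {δ : ℝ} (hδ : 0 < δ)
    (hZδ : ∀ z ∈ Z, δ ≤ ‖z‖) :
    ∃ ψ : M →L[ℂ] ℂ, IsState ψ ∧ PP C ψ ∧ ∀ z ∈ Z, δ ≤ (ψ z).re := by
  sorry

end Vale.Agent.P070
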