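import Vale.Agent.P070.Fock
import Vale.Agent.P070.Polar

/-!
# The step operator, general index set (F7)

PLAN.  `t i = (√(re τ(q i)))⁻¹` (zero when `q i = 0`; `τ (q i) = 0 ↔ q i = 0` by `tau_faith`).
`ℓ ξ = ∑ i, t i • q (σ i) (star (la c) (q i ξ))`: orthogonal series,
`‖q (σ i) star(la c) q i ξ‖² = τ(q (σ i)) ‖q i ξ‖²` by F6 (`la_mul_mul_star_la`).
Characterised by `ℓ * q i = t i • q (σ i) * star (la c) * q i`; operators agree as soon as they agree
after right multiplication by every `q i` (`hsum`).  Also `q (σ i) * ℓ = ℓ * q i`.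
* `star ℓ * a * ℓ * q i`: `q j * star ℓ * a * ℓ * q i = t j t i q j (la c * (q (σ j) a q (σ i)) * star (la c)) q i
   = t j t i τ(q (σ j) a q (σ i)) q j q i`, trace property for `i = j`.
* `z = ℓ + star ℓ` commutes with `zr d`: check `q j * (z * zr d - zr d * z) * q i = 0`, using that the
  `q`'s commute with `zr d`, `la_ra`, `la_ra_comm`:
  `q j [ℓ, zr d] q i = -δ_{cd} [j = σ i] t i q j P_Ω q i`, `q j [star ℓ, zr d] q i = δ_{cd} [i = σ j] t j q j P_Ω q i`,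
  and `t (σ i) = t i`.
* `z` commutes with `PX (insert c X)` (the `q i` do by `NN_mono`, `PX_comm_la`).
* `star ℓ * PX {c}ᶜ = 0` (`q (σ i)` commutes with `PX {c}ᶜ`, `la_mul_PX`); in particular `star ℓ Om = 0`.
* `z` injective: the projection `k` on `ker z` commutes with all `zr d`; `ξ = k Om` has
  `ℓ ξ = - star ℓ ξ`, so `ξ = -(star ℓ)^2 ξ`, `⟪Om, ξ⟫ = (-1)^n ⟪ℓ^(2n) Om, ξ⟫ → 0` (Bessel:
  `ℓ^n Om` orthonormal), and `⟪Om, k Om⟫ = ‖k Om‖²`, so `k Om = 0`, `k = 0` by `sep`.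
* `u` from `exists_polar`; `R u R = 0` from `exists_wold` (`A = Γ`, `B = -Γ`).
-/

namespace Vale.Agent.P070

open Filter Topology
open scoped InnerProductSpace ComplexOrder

variable {α : Type}

theorem exists_step_gen {ι : Type} (X : Set α) (c : α) (hc : c ∉ X) (q : ι → FM α) (σ : ι → ι)
    (hσ : Function.Involutive σ) (hq : ∀ i, q i ∈ NN X) (hp : ∀ i, IsStarProjection (q i))
    (horth : ∀ i j, i ≠ j → q i * q j = 0) (hsum : ∀ ξ : FH α, HasSum (fun i => q i ξ) ξ)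
    (htr : ∀ i, tau (q (σ i)) = tau (q i)) :
    ∃ ℓ u : FM α, u ∈ NN (insert c X) ∧ star u = u ∧ u * u = 1 ∧ (∀ i, u * q i = q (σ i) * u) ∧
      star ℓ * ℓ = 1 ∧ (∀ i, ℓ * q i = q (σ i) * ℓ) ∧
      (1 - ℓ * star ℓ) * u * (1 - ℓ * star ℓ) = 0 ∧ star ℓ * PX ({c}ᶜ : Set α) = 0 ∧
      ∀ a ∈ NN ({c}ᶜ : Set α), ∀ i,
        star ℓ * a * ℓ * q i = (tau (q (σ i) * a) / tau (q i)) • q i ∧
        q i * (star ℓ * a * ℓ) = (tau (q (σ i) * a) / tau (q i)) • q i := by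
  sorry

end Vale.Agent.P070
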