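import Vale.Agent.P070.CondExp
import Vale.Agent.P070.StepA

/-!
# The step for two decreasing sequences, the base family, and the Fock frame

PLAN.
* `fock_step`: `ι = Option (Bool × ℕ)`, `q none = 1 - T false 0 - T true 0`,
  `q (some (b, n)) = T b n - T b (n+1)`, `σ` flips `b`.  `T b m → 0` strongly: the set of `ξ` with
  `T b m ξ → 0` is a closed subspace, contains `Om` (`‖T Om‖² = τ T`), invariant under `zr c`; `cyclic`.
  `1 - T false m - T true m` is a finite sum of `q i`; `T b m = T b 0 - ∑_{n<m} q (b,n)` and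
  an operator `y` with `y * q i = q (σ i) * y` for all `i` has `y * T b m = T (!b) m * y` (check after
  right multiplication by each `q i`, or by strong limits).
  `E_zero`: `EE {c}ᶜ W Om = PX {c}ᶜ (W Om)`, `R Om = Om`, `PX {c}ᶜ * R = PX {c}ᶜ`, then `sep`.
  `bound`: `‖x r ℓ‖² = ‖r (star ℓ (star x * x) ℓ) r‖ ≤ ∑_{i finite} τ(q (σ i) x* x)/τ(q i)`,
  `0 ≤ τ(q x* x) = τ(x q x*) ≤ τ(x x*) = τ(x* x)`.
* `fock_base`: recursively build `p n ∈ NN (e '' {k | k < 2n})`: with `ι = Bool`,
  `q = (p n, 1 - p n)`, `σ = id`, letter `e (2n)` get a symmetry `a` commuting with `p n` with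
  `EE {e (2n)}ᶜ a = 0`, so `τ (p n * a) = τ (EE (p n * a)) = 0`; `p (n+1) = (1/2) • (p n * (1 + a))`.
  `b n` := the `u` of the step at letter `e (2n+1)` with `ι = Option Bool`,
  `q = (1 - p n, p (n+1), p n - p (n+1))`, swapping the last two.
-/

namespace Vale.Agent.P070

open Filter Topology
open scoped InnerProductSpace ComplexOrder

noncomputable section

variable {α : Type}

section Orth

variable {H : Type*} [NormedAddCommGroup H] [InnerProductSpace ℂ H] [CompleteSpace H]
variable {ι : Type*} {q : ι → H →L[ℂ] H}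

theorem sum_proj (hp : ∀ i, IsStarProjection (q i)) (horth : ∀ i j, i ≠ j → q i * q j = 0)
    (s : Finset ι) : IsStarProjection (∑ i ∈ s, q i) := by
  classical
  induction s using Finset.induction_on with
  | empty => simpa using IsStarProjection.zero (H →L[ℂ] H)
  | insert a s ha ih =>
    rw [Finset.sum_insert ha]
    refine (hp a).add ih ?_
    rw [Finset.mul_sum]
    exact Finset.sum_eq_zero fun j hj => horth a j (fun h => ha (h ▸ hj))

theorem sum_mul_sum_of_subset (hp : ∀ i, IsStarProjection (q i))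
    (horth : ∀ i j, i ≠ j → q i * q j = 0) {s t : Finset ι} (h : s ⊆ t) :
    (∑ i ∈ t, q i) * (∑ i ∈ s, q i) = ∑ i ∈ s, q i := by
  rw [Finset.mul_sum]
  refine Finset.sum_congr rfl fun j hj => ?_
  rw [Finset.sum_mul, Finset.sum_eq_single j]
  · exact (hp j).isIdempotentElem.eq
  · exact fun i _ hij => horth i j hij
  · exact fun hj' => absurd (h hj) hj'

theorem hasSum_of_tendsto (hp : ∀ i, IsStarProjection (q i))
    (horth : ∀ i j, i ≠ j → q i * q j = 0) (F : ℕ → Finset ι) (ξ : H)
    (h : Tendsto (fun m => (1 - ∑ i ∈ F m, q i) ξ) atTop (𝓝 0)) :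
    HasSum (fun i => q i ξ) ξ := by
  classical
  rw [HasSum, SummationFilter.unconditional_filter, Metric.tendsto_atTop]
  intro ε hε
  obtain ⟨m, hm⟩ := (Metric.tendsto_atTop.1 h) ε hε
  refine ⟨F m, fun s hs => ?_⟩
  have h1 := hm m le_rfl
  rw [dist_zero_right] at h1
  have h2 : (1 - ∑ i ∈ s, q i) * (1 - ∑ i ∈ F m, q i) = 1 - ∑ i ∈ s, q i := by
    rw [mul_sub, mul_one, sub_mul, one_mul, sum_mul_sum_of_subset hp horth hs, sub_self, sub_zero]
  have h3 : ξ - ∑ i ∈ s, q i ξ = (1 - ∑ i ∈ s, q i) ((1 - ∑ i ∈ F m, q i) ξ) := by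
    change _ = ((1 - ∑ i ∈ s, q i) * (1 - ∑ i ∈ F m, q i)) ξ
    rw [h2]
    simp
  rw [dist_comm, dist_eq_norm, h3]
  refine lt_of_le_of_lt ?_ h1
  refine ((1 - ∑ i ∈ s, q i).le_opNorm _).trans ?_
  exact mul_le_of_le_one_left (norm_nonneg _) (IsStarProjection.norm_le _
    (sum_proj hp horth s).one_sub)

omit [CompleteSpace H] in
theorem ext_q (hsum : ∀ ξ, HasSum (fun i => q i ξ) ξ) {x y : H →L[ℂ] H}
    (h : ∀ i, x * q i = y * q i) : x = y := by
  ext ξ
  have h1 := (hsum ξ).mapL x
  have h2 := (hsum ξ).mapL y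
  refine h1.unique ?_
  have : (fun i => x (q i ξ)) = fun i => y (q i ξ) := by
    funext i
    exact congrArg (fun T : H →L[ℂ] H => T ξ) (h i)
  rw [this]
  exact h2

end Orth

section Data

variable {R : Type*} [Ring R] [StarRing R] {T : Bool → ℕ → R}

theorem T_le (hp : ∀ b m, IsStarProjection (T b m))
    (hd : ∀ b m, T b (m + 1) * T b m = T b (m + 1)) (b : Bool) {m n : ℕ} (h : m ≤ n) :
    T b n * T b m = T b n ∧ T b m * T b n = T b n := by
  have h1 : T b n * T b m = T b n := by
    induction h with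
    | refl => exact (hp b m).isIdempotentElem.eq
    | step _ ih => rw [← hd, mul_assoc, ih]
  refine ⟨h1, ?_⟩
  have := congrArg star h1
  rwa [star_mul, (hp b m).isSelfAdjoint.star_eq, (hp b n).isSelfAdjoint.star_eq] at this

theorem T_cross (hp : ∀ b m, IsStarProjection (T b m))
    (hd : ∀ b m, T b (m + 1) * T b m = T b (m + 1)) (ho : T false 0 * T true 0 = 0)
    (b : Bool) (m n : ℕ) : T b m * T (!b) n = 0 := by
  have h0 : T b 0 * T (!b) 0 = 0 := by
    cases b
    · exact ho
    · have := congrArg star ho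
      rwa [star_mul, (hp _ _).isSelfAdjoint.star_eq, (hp _ _).isSelfAdjoint.star_eq,
        star_zero] at this
  rw [← (T_le hp hd b (Nat.zero_le m)).1, ← (T_le hp hd (!b) (Nat.zero_le n)).2, mul_assoc,
    ← mul_assoc (T b 0), h0, zero_mul, mul_zero]

/-- the partition of unity attached to `T` -/
def qq (T : Bool → ℕ → R) : Option (Bool × ℕ) → R
  | none => 1 - T false 0 - T true 0
  | some (b, n) => T b n - T b (n + 1)

/-- the flip -/
def sg : Option (Bool × ℕ) → Option (Bool × ℕ)
  | none => none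
  | some (b, n) => some (!b, n)

/-- the indices below `T b m` -/
def Sb (b : Bool) (m : ℕ) : Option (Bool × ℕ) → Bool
  | none => false
  | some (b', n) => decide (b' = b ∧ m ≤ n)

theorem sg_invol : Function.Involutive sg := by
  rintro (_ | ⟨b, n⟩) <;> simp [sg]

theorem Sb_sg (b : Bool) (m : ℕ) (i : Option (Bool × ℕ)) : Sb (!b) m (sg i) = Sb b m i := by
  rcases i with _ | ⟨b', n⟩
  · rfl
  · cases b <;> cases b' <;> simp [sg, Sb]

theorem T_mul_qq (hp : ∀ b m, IsStarProjection (T b m))
    (hd : ∀ b m, T b (m + 1) * T b m = T b (m + 1)) (ho : T false 0 * T true 0 = 0)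
    (b : Bool) (m : ℕ) (i : Option (Bool × ℕ)) :
    T b m * qq T i = if Sb b m i then qq T i else 0 := by
  rcases i with _ | ⟨b', n⟩
  · have h1 := (T_le hp hd b (Nat.zero_le m)).1
    have h2 := T_cross hp hd ho b m 0
    cases b
    · simp only [qq, Sb, mul_sub, mul_one, h1, Bool.not_false ▸ h2]
      simp
    · simp only [qq, Sb, mul_sub, mul_one, h1, Bool.not_true ▸ h2]
      simp
  · by_cases hb : b' = b
    · subst hb
      by_cases hm : m ≤ n
      · simp only [qq, Sb, mul_sub, (T_le hp hd b' hm).2, (T_le hp hd b' (hm.trans n.le_succ)).2]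
        simp [hm]
      · have h1 : n + 1 ≤ m := by omega
        simp only [qq, Sb, mul_sub, (T_le hp hd b' h1).1, (T_le hp hd b' (n.le_succ.trans h1)).1]
        simp [hm]
    · have : b' = !b := by cases b <;> cases b' <;> simp_all
      subst this
      simp only [qq, Sb, mul_sub, T_cross hp hd ho]
      simp

theorem qq_proj (hp : ∀ b m, IsStarProjection (T b m))
    (hd : ∀ b m, T b (m + 1) * T b m = T b (m + 1)) (ho : T false 0 * T true 0 = 0)
    (i : Option (Bool × ℕ)) : IsStarProjection (qq T i) := by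
  rcases i with _ | ⟨b, n⟩
  · have := ((hp false 0).add (hp true 0) ho).one_sub
    rwa [← sub_sub] at this
  · exact (hp b (n + 1)).sub_of_mul_eq_left (hp b n) (hd b n)

theorem qq_orth (hp : ∀ b m, IsStarProjection (T b m))
    (hd : ∀ b m, T b (m + 1) * T b m = T b (m + 1)) (ho : T false 0 * T true 0 = 0)
    (i j : Option (Bool × ℕ)) (hij : i ≠ j) : qq T i * qq T j = 0 := by
  have key : ∀ (b : Bool) (n : ℕ) (j : Option (Bool × ℕ)), some (b, n) ≠ j →
      qq T (some (b, n)) * qq T j = 0 := by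
    intro b n j hj
    have h : Sb b n j = Sb b (n + 1) j := by
      rcases j with _ | ⟨b', k⟩
      · rfl
      · by_cases hb : b' = b
        · subst hb
          have : n ≠ k := fun h => hj (by rw [h])
          simp only [Sb, true_and, decide_eq_decide]
          omega
        · simp [Sb, hb]
    change (T b n - T b (n + 1)) * qq T j = 0
    rw [sub_mul, T_mul_qq hp hd ho, T_mul_qq hp hd ho, h, sub_self]
  rcases i with _ | ⟨b, n⟩
  · rcases j with _ | ⟨b, n⟩
    · exact absurd rfl hij
    · have := congrArg star (key b n none hij.symm)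
      rwa [star_mul, (qq_proj hp hd ho _).isSelfAdjoint.star_eq,
        (qq_proj hp hd ho _).isSelfAdjoint.star_eq, star_zero] at this
  · exact key b n j hij

theorem qq_mul_T (hp : ∀ b m, IsStarProjection (T b m))
    (hd : ∀ b m, T b (m + 1) * T b m = T b (m + 1)) (ho : T false 0 * T true 0 = 0)
    (b : Bool) (m : ℕ) (i : Option (Bool × ℕ)) :
    qq T i * T b m = if Sb b m i then qq T i else 0 := by
  have := congrArg star (T_mul_qq hp hd ho b m i)
  rw [star_mul, (qq_proj hp hd ho _).isSelfAdjoint.star_eq, (hp _ _).isSelfAdjoint.star_eq] at this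
  rw [this]
  split_ifs
  · exact (qq_proj hp hd ho _).isSelfAdjoint.star_eq
  · exact star_zero _

/-- the finite index sets -/
def FF (m : ℕ) : Finset (Option (Bool × ℕ)) :=
  Finset.insertNone (Finset.univ ×ˢ Finset.range m)

omit [StarRing R] in
theorem sum_FF (T : Bool → ℕ → R) (m : ℕ) :
    ∑ i ∈ FF m, qq T i = 1 - T false m - T true m := by
  rw [FF, Finset.sum_insertNone, Finset.sum_product, Fintype.sum_bool]
  simp only [qq]
  rw [Finset.sum_range_sub', Finset.sum_range_sub']
  abel

end Data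

theorem strong_zero {X : Set α} (S : ℕ → FM α) (hm : ∀ m, S m ∈ NN X)
    (hp : ∀ m, IsStarProjection (S m)) (hl : Tendsto (fun m => tau (S m)) atTop (𝓝 0))
    (ξ : FH α) : Tendsto (fun m => S m ξ) atTop (𝓝 0) := by
  let K : Submodule ℂ (FH α) :=
    { carrier := {ξ | Tendsto (fun m => S m ξ) atTop (𝓝 0)}
      add_mem' := fun {a b} ha hb => by
        have := Tendsto.add ha hb
        simpa using this
      zero_mem' := by simp
      smul_mem' := fun c a ha => by
        have := Tendsto.const_smul ha c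
        simpa using this }
  have hK : IsClosed (K : Set (FH α)) := by
    have h1 : UniformEquicontinuous (fun m (ξ : FH α) => S m ξ) :=
      LipschitzWith.uniformEquicontinuous _ 1 fun m =>
        (S m).lipschitz.weaken (by exact_mod_cast IsStarProjection.norm_le _ (hp m))
    exact h1.equicontinuous.isClosed_setOfPred_tendsto (f := fun _ => (0 : FH α)) continuous_const
  have h0 : Om ∈ K := by
    change Tendsto (fun m => S m Om) atTop (𝓝 0)
    rw [tendsto_zero_iff_norm_tendsto_zero]
    have h1 : ∀ m, ‖S m Om‖ = √(‖tau (S m)‖) := by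
      intro m
      have := tau_star_mul_self (S m)
      rw [(hp m).isSelfAdjoint.star_eq, (hp m).isIdempotentElem.eq] at this
      rw [this, Complex.norm_real, Real.norm_eq_abs, abs_of_nonneg (sq_nonneg _),
        Real.sqrt_sq (norm_nonneg _)]
    simp_rw [h1]
    have := (tendsto_zero_iff_norm_tendsto_zero.1 hl).sqrt
    simpa using this
  have hz : ∀ c ∈ (Set.univ : Set α), ∀ ξ ∈ K, zr c ξ ∈ K := by
    intro c _ ξ hξ
    change Tendsto (fun m => S m (zr c ξ)) atTop (𝓝 0)
    have h1 : ∀ m, S m (zr c ξ) = zr c (S m ξ) := fun m =>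
      congrArg (fun T : FM α => T ξ) ((mem_NN_iff.1 (hm m)).1 c)
    simp_rw [h1]
    have := ((zr c).continuous.tendsto 0).comp hξ
    simpa [Function.comp_def] using this
  have := cyclic Set.univ K hK h0 hz ξ
  rw [PX_univ] at this
  exact this

theorem EE_zero_of {Y : Set α} {ℓ : FM α} (h : star ℓ * PX Y = 0) (W : FM α)
    (hW : W ∈ NN (Set.univ : Set α)) (hR : (1 - ℓ * star ℓ) * W * (1 - ℓ * star ℓ) = 0) :
    EE Y W = 0 := by
  refine sep (mem_NN_iff.1 ((EE_spec Y).mem W hW)).1 ?_
  rw [EE_Om]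
  have hP : star (PX Y : FM α) = PX Y := (mult_proj _).isSelfAdjoint.star_eq
  have h1 : PX Y * ℓ = 0 := by
    have := congrArg star h
    rwa [star_mul, star_star, hP, star_zero] at this
  have h2 : PX Y * (1 - ℓ * star ℓ) = PX Y := by
    rw [mul_sub, mul_one, ← mul_assoc, h1, zero_mul, sub_zero]
  have h3 : (1 - ℓ * star ℓ) * PX Y = PX Y := by
    rw [sub_mul, one_mul, mul_assoc, h, mul_zero, sub_zero]
  have h4 : PX Y * W * PX Y = 0 := by
    calc PX Y * W * PX Y = PX Y * (1 - ℓ * star ℓ) * W * ((1 - ℓ * star ℓ) * PX Y) := by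
          rw [h2, h3]
      _ = PX Y * ((1 - ℓ * star ℓ) * W * (1 - ℓ * star ℓ)) * PX Y := by simp only [mul_assoc]
      _ = 0 := by rw [hR, mul_zero, zero_mul]
  have h5 := congrArg (fun T : FM α => T Om) h4
  simpa [PX_Om] using h5

theorem tau_proj_mul_le {q x : FM α} (hq : q ∈ NN (Set.univ : Set α)) (hp : IsStarProjection q)
    (hx : x ∈ NN (Set.univ : Set α)) :
    ‖tau (q * (star x * x))‖ ≤ (tau (star x * x)).re := by
  have hsx : star x ∈ NN (Set.univ : Set α) := star_mem hx
  have h1 : tau (q * (star x * x)) = tau (star (q * star x) * (q * star x)) := by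
    rw [← mul_assoc, tau_trace _ (mul_mem hq hsx) _ hx, star_mul, star_star,
      hp.isSelfAdjoint.star_eq, mul_assoc, ← mul_assoc q q, hp.isIdempotentElem.eq]
  have h2 : tau (star x * x) = tau (star (star x) * star x) := by
    rw [star_star, tau_trace _ hsx _ hx]
  rw [h1, h2, tau_star_mul_self, tau_star_mul_self, Complex.norm_real, Complex.ofReal_re,
    Real.norm_eq_abs, abs_of_nonneg (sq_nonneg _)]
  have h3 : ‖(q * star x) Om‖ ≤ ‖(star x : FM α) Om‖ :=
    (q.le_opNorm _).trans (mul_le_of_le_one_left (norm_nonneg _) (IsStarProjection.norm_le _ hp))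
  exact pow_le_pow_left₀ (norm_nonneg _) h3 2

theorem fock_step (X : Set α) (c : α) (hc : c ∉ X) (T : Bool → ℕ → FM α)
    (hT : IsData tau (NN X) T) : ∃ ℓ u, IsStep tau NN EE X c T ℓ u := by
  have hp := hT.proj
  have hd := hT.dec
  have ho := hT.orth
  have hq : ∀ i, qq T i ∈ NN X := by
    rintro (_ | ⟨b, n⟩)
    · exact sub_mem (sub_mem (one_mem _) (hT.mem _ _)) (hT.mem _ _)
    · exact sub_mem (hT.mem _ _) (hT.mem _ _)
  have hlim : ∀ b, Tendsto (fun m => tau (T b m)) atTop (𝓝 0) := by
    intro b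
    cases b
    · exact hT.tr_lim
    · simpa only [hT.tr_eq] using hT.tr_lim
  have hsum : ∀ ξ : FH α, HasSum (fun i => qq T i ξ) ξ := by
    intro ξ
    refine hasSum_of_tendsto (qq_proj hp hd ho) (qq_orth hp hd ho) FF ξ ?_
    have h1 := (strong_zero (T false) (hT.mem false) (hp false) (hlim false) ξ).add
      (strong_zero (T true) (hT.mem true) (hp true) (hlim true) ξ)
    rw [add_zero] at h1
    refine h1.congr fun m => ?_
    rw [sum_FF]
    simp only [sub_apply, one_apply_eq_self]
    abel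
  have htr : ∀ i, tau (qq T (sg i)) = tau (qq T i) := by
    rintro (_ | ⟨b, n⟩)
    · rfl
    · cases b <;> simp [qq, sg, hT.tr_eq]
  obtain ⟨ℓ, u, h1, h2, h3, h4, h5, h6, h7, h8, h9⟩ := exists_step_gen X c hc (qq T) sg sg_invol hq
    (qq_proj hp hd ho) (qq_orth hp hd ho) hsum htr
  have inter : ∀ (y : FM α) (ρ : Option (Bool × ℕ) → Option (Bool × ℕ)) (b b' : Bool) (m : ℕ),
      (∀ i, y * qq T i = qq T (ρ i) * y) → (∀ i, Sb b' m (ρ i) = Sb b m i) →
      y * T b m = T b' m * y := by
    intro y ρ b b' m hy hρ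
    refine ext_q hsum fun i => ?_
    rw [mul_assoc, mul_assoc, T_mul_qq hp hd ho, hy, ← mul_assoc, T_mul_qq hp hd ho, hρ]
    split_ifs
    · exact hy i
    · simp
  have hlT : ∀ b m, ℓ * T b m = T (!b) m * ℓ := fun b m => inter ℓ sg b (!b) m h6 (Sb_sg b m)
  have hphi : ∀ a ∈ NN ({c}ᶜ : Set α), ∀ m, star ℓ * a * ℓ * (1 - T false m - T true m) =
      ∑ i ∈ FF m, (tau (qq T (sg i) * a) / tau (qq T i)) • qq T i := by
    intro a ha m
    rw [← sum_FF, Finset.mul_sum]
    exact Finset.sum_congr rfl fun i _ => (h9 a ha i).1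
  refine ⟨ℓ, u, ⟨h1, h2, h3, fun b m => inter u sg b (!b) m h4 (Sb_sg b m), h5, hlT, h7,
    fun W hW hR => EE_zero_of h8 W hW hR, ?_, ?_, ?_, ?_⟩⟩
  · intro a ha m
    rw [hphi a ha m]
    refine Submodule.sum_mem _ fun i _ => Submodule.smul_mem _ _ ?_
    have e1 : (1 : FM α) ∈ Submodule.span ℂ (insert (1 : FM α) (Set.range (Function.uncurry T))) :=
      Submodule.subset_span (Set.mem_insert _ _)
    have e2 : ∀ b n, T b n ∈
        Submodule.span ℂ (insert (1 : FM α) (Set.range (Function.uncurry T))) := fun b n =>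
      Submodule.subset_span (Set.mem_insert_of_mem _ ⟨(b, n), rfl⟩)
    rcases i with _ | ⟨b, n⟩
    · exact sub_mem (sub_mem e1 (e2 _ _)) (e2 _ _)
    · exact sub_mem (e2 _ _) (e2 _ _)
  · intro a ha b m
    refine inter _ id b b m (fun i => ?_) (fun i => rfl)
    rw [(h9 a ha i).1, id, (h9 a ha i).2]
  · intro m
    refine ⟨∑ i ∈ FF m, ‖tau (qq T i)‖⁻¹, Finset.sum_nonneg fun i _ => by positivity, ?_⟩
    intro x hx
    have hxu : x ∈ NN (Set.univ : Set α) := NN_mono (Set.subset_univ _) hx
    have hr : IsStarProjection (1 - T false m - T true m) := by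
      rw [← sum_FF]
      exact sum_proj (qq_proj hp hd ho) (qq_orth hp hd ho) _
    have hcomm : (1 - T false m - T true m) * ℓ = ℓ * (1 - T false m - T true m) := by
      rw [sub_mul, sub_mul, mul_sub, mul_sub, hlT, hlT, one_mul, mul_one]
      simp only [Bool.not_false, Bool.not_true]
      abel
    have e1 : ‖x * (1 - T false m - T true m) * ℓ‖ ^ 2 =
        ‖(1 - T false m - T true m) *
          (star ℓ * (star x * x) * ℓ * (1 - T false m - T true m))‖ := by
      rw [mul_assoc x, hcomm, sq, ← CStarRing.norm_star_mul_self, star_mul, star_mul,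
        hr.isSelfAdjoint.star_eq]
      simp only [mul_assoc]
    rw [e1, hphi _ (mul_mem (star_mem hx) hx) m, Finset.sum_mul]
    refine (norm_mul_le _ _).trans ?_
    refine (mul_le_of_le_one_left (norm_nonneg _) (IsStarProjection.norm_le _ hr)).trans ?_
    refine (norm_sum_le _ _).trans (Finset.sum_le_sum fun i _ => ?_)
    rw [norm_smul, norm_div]
    refine (mul_le_of_le_one_right (by positivity)
      (IsStarProjection.norm_le _ (qq_proj hp hd ho i))).trans ?_
    rw [div_eq_inv_mul]
    exact mul_le_mul_of_nonneg_left (tau_proj_mul_le (NN_mono (Set.subset_univ _) (hq _))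
      (qq_proj hp hd ho _) hxu) (by positivity)
  · intro h0 a ha
    have := (h9 a ha none).1
    simp only [qq, sg, h0, sub_zero, mul_one, one_mul, tau_state.map_one, div_one] at this
    exact this

theorem half_alg {A : Type*} [Ring A] [StarRing A] [Algebra ℂ A] [StarModule ℂ A] {p u : A}
    (hpp : IsStarProjection p) (h2 : star u = u) (h3 : u * u = 1) (hup : u * p = p * u) :
    IsStarProjection ((1 / 2 : ℂ) • (p + p * u)) ∧
      ((1 / 2 : ℂ) • (p + p * u)) * p = (1 / 2 : ℂ) • (p + p * u) := by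
  have hpp2 : p * p = p := hpp.isIdempotentElem.eq
  have hpup : p * u * p = p * u := by rw [mul_assoc, hup, ← mul_assoc, hpp2]
  refine ⟨⟨?_, ?_⟩, ?_⟩
  · have e : (p + p * u) * (p + p * u) = (2 : ℂ) • (p + p * u) := by
      rw [add_mul, mul_add, mul_add, ← mul_assoc p p, hpp2, hpup, ← mul_assoc, hpup, mul_assoc p u u,
        h3, mul_one, two_smul]
      abel
    change ((1 / 2 : ℂ) • (p + p * u)) * ((1 / 2 : ℂ) • (p + p * u)) = _
    rw [smul_mul_smul_comm, e, smul_smul]
    norm_num
  · change star ((1 / 2 : ℂ) • (p + p * u)) = _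
    rw [star_smul, star_add, star_mul, h2, hpp.isSelfAdjoint.star_eq, hup]
    simp
  · rw [smul_mul_assoc, add_mul, hpp2, hpup]

theorem exists_half (X : Set α) (c : α) (hc : c ∉ X) (p : FM α) (hp : p ∈ NN X)
    (hpp : IsStarProjection p) : ∃ p' : FM α, (p' ∈ NN (insert c X) ∧ IsStarProjection p') ∧
      p' * p = p' ∧ tau p' = (1 / 2 : ℂ) * tau p := by
  obtain ⟨q, q0, q1⟩ : ∃ q : Bool → FM α, q false = 1 - p ∧ q true = p :=
    ⟨fun b => if b then p else 1 - p, rfl, rfl⟩
  have hq : ∀ i, q i ∈ NN X := by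
    intro i
    cases i
    · rw [q0]; exact sub_mem (one_mem _) hp
    · rw [q1]; exact hp
  have hqp : ∀ i, IsStarProjection (q i) := by
    intro i
    cases i
    · rw [q0]; exact hpp.one_sub
    · rw [q1]; exact hpp
  have horth : ∀ i j, i ≠ j → q i * q j = 0 := by
    intro i j hij
    cases i <;> cases j
    · exact absurd rfl hij
    · rw [q0, q1]; exact hpp.one_sub_mul_self
    · rw [q0, q1]; exact hpp.mul_one_sub_self
    · exact absurd rfl hij
  have hsum : ∀ ξ : FH α, HasSum (fun i => q i ξ) ξ := by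
    intro ξ
    have := hasSum_fintype (fun i => q i ξ)
    rw [Fintype.sum_bool, q0, q1, sub_apply, one_apply_eq_self, add_sub_cancel] at this
    exact this
  obtain ⟨ℓ, u, h1, h2, h3, h4, -, -, h7, h8, -⟩ := exists_step_gen X c hc q id
    (fun _ => rfl) hq hqp horth hsum (fun _ => rfl)
  have hup : u * p = p * u := by
    have := h4 true
    rwa [id, q1] at this
  have hE : EE ({c}ᶜ : Set α) u = 0 := EE_zero_of h8 u (NN_mono (Set.subset_univ _) h1) h7
  have hXc : X ⊆ ({c}ᶜ : Set α) := Set.subset_compl_singleton_iff.2 hc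
  have hpc : p ∈ NN ({c}ᶜ : Set α) := NN_mono hXc hp
  have htau : tau (p * u) = 0 := by
    rw [← tau_EE ({c}ᶜ : Set α), (EE_spec _).mul_left p hpc, hE, mul_zero, map_zero]
  obtain ⟨a1, a2⟩ := half_alg hpp h2 h3 hup
  refine ⟨(1 / 2 : ℂ) • (p + p * u), ⟨?_, a1⟩, a2, ?_⟩
  · have hp' : p ∈ NN (insert c X) := NN_mono (Set.subset_insert _ _) hp
    exact SMulMemClass.smul_mem _ (add_mem hp' (mul_mem hp' h1))
  · rw [map_smul, map_add, htau, add_zero, smul_eq_mul]

theorem exists_swap (X : Set α) (c : α) (hc : c ∉ X) (p p' : FM α) (hp : p ∈ NN X)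
    (hp' : p' ∈ NN X) (hpp : IsStarProjection p) (hpp' : IsStarProjection p') (h : p' * p = p')
    (ht : tau p' = (1 / 2 : ℂ) * tau p) :
    ∃ b ∈ NN (insert c X), p = p' + star b * p' * b := by
  let T : Bool → ℕ → FM α := fun b n => if n = 0 then (if b then p - p' else p') else 0
  have hT : IsData tau (NN X) T := by
    refine ⟨?_, ?_, ?_, ?_, ?_, ?_⟩
    · intro b m
      simp only [T]
      split_ifs
      · exact sub_mem hp hp'
      · exact hp'
      · exact zero_mem _
    · intro b m
      simp only [T]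
      split_ifs
      · exact hpp'.sub_of_mul_eq_left hpp h
      · exact hpp'
      · exact IsStarProjection.zero _
    · intro b m
      simp [T]
    · simp [T, mul_sub, h, hpp'.isIdempotentElem.eq]
    · intro m
      by_cases hm : m = 0
      · simp only [T, hm, if_true, Bool.false_eq_true, if_false, map_sub, ht]
        ring
      · simp [T, hm]
    · refine tendsto_const_nhds.congr' ?_
      filter_upwards [eventually_gt_atTop 0] with m hm
      simp [T, hm.ne']
  obtain ⟨ℓ, u, hs⟩ := fock_step X c hc T hT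
  refine ⟨u, hs.u_mem, ?_⟩
  have h1 : u * p' = (p - p') * u := by simpa [T] using hs.u_T false 0
  rw [hs.u_sa, h1, mul_assoc, hs.u_sq, mul_one, add_sub_cancel]

theorem fock_base (e : ℕ → α) (he : Function.Injective e) :
    ∃ p b, IsBase tau (NN (Set.range e)) p b := by
  let X : ℕ → Set α := fun n => (fun k => e (k + 1)) '' {k | k < n}
  have hX : ∀ n, insert (e (n + 1)) (X n) ⊆ X (n + 1) := by
    rintro n x (rfl | ⟨k, hk, rfl⟩)
    · exact ⟨n, Nat.lt_succ_self n, rfl⟩
    · exact ⟨k, Nat.lt_succ_of_lt hk, rfl⟩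
  have hn : ∀ n, e (n + 1) ∉ X n := by
    rintro n ⟨k, hk, h⟩
    have := he h
    have hk' : k < n := hk
    omega
  have h0 : ∀ n, e 0 ∉ X n := by
    rintro n ⟨k, -, h⟩
    have := he h
    omega
  have step : ∀ n (x : {x : FM α // x ∈ NN (X n) ∧ IsStarProjection x}),
      ∃ y : {x : FM α // x ∈ NN (X (n + 1)) ∧ IsStarProjection x},
        y.1 * x.1 = y.1 ∧ tau y.1 = (1 / 2 : ℂ) * tau x.1 := by
    intro n x
    obtain ⟨p', ⟨a1, a2⟩, a3, a4⟩ := exists_half (X n) _ (hn n) x.1 x.2.1 x.2.2
    exact ⟨⟨p', NN_mono (hX n) a1, a2⟩, a3, a4⟩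
  choose f hf using step
  let P : (n : ℕ) → {x : FM α // x ∈ NN (X n) ∧ IsStarProjection x} :=
    fun n => Nat.rec ⟨1, one_mem _, IsStarProjection.one _⟩ (fun n x => f n x) n
  have hP : ∀ n, P (n + 1) = f n (P n) := fun n => rfl
  have hXr : ∀ n, insert (e 0) (X n) ⊆ Set.range e := by
    rintro n x (rfl | ⟨k, -, rfl⟩)
    · exact ⟨0, rfl⟩
    · exact ⟨k + 1, rfl⟩
  have hb : ∀ n, ∃ b ∈ NN (insert (e 0) (X (n + 1))),
      (P n).1 = (P (n + 1)).1 + star b * (P (n + 1)).1 * b := by
    intro n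
    refine exists_swap _ _ (h0 _) _ _ (NN_mono ((Set.subset_insert _ _).trans (hX n)) (P n).2.1)
      (P (n + 1)).2.1 (P n).2.2 (P (n + 1)).2.2 ?_ ?_
    · rw [hP]; exact (hf n (P n)).1
    · rw [hP]; exact (hf n (P n)).2
  choose b hb1 hb2 using hb
  refine ⟨fun n => (P n).1, b, ⟨fun n => NN_mono ((Set.subset_insert _ _).trans (hXr n)) (P n).2.1,
    fun n => NN_mono (hXr _) (hb1 n), rfl, fun n => (P n).2.2, fun n => ?_, fun n => ?_, hb2⟩⟩
  · rw [hP]; exact (hf n (P n)).1
  · induction n with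
    | zero =>
      have := (tau_state (α := α)).map_one
      rw [pow_zero, Complex.ofReal_one]
      exact this
    | succ n ih =>
      rw [hP, (hf n (P n)).2, ih, pow_succ]
      push_cast
      ring

/-- the Fock frame -/
def fockFrame (α : Type) : Frame α (FM α) where
  τ := tau
  N := NN
  E := EE
  coef := fun x w => x Om w
  τ_state := tau_state
  τ_trace := tau_trace
  τ_faith := tau_faith
  N_closed := NN_closed
  N_mono := NN_mono
  coef_inj := coef_inj
  E_one := fun X => (EE_spec X).one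
  E_nonneg := fun X => (EE_spec X).nonneg
  E_norm := fun X => (EE_spec X).norm_le
  E_star := fun X => (EE_spec X).map_star
  E_mul_left := fun X => (EE_spec X).mul_left
  E_mul_right := fun X => (EE_spec X).mul_right
  E_mem := fun X => (EE_spec X).mem
  E_E := EE_EE
  split := fock_split
  step := fock_step
  base := fock_base

end

end Vale.Agent.P070
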